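import Mathlib

open Set Filter Topology
open scoped ContDiff

namespace Vale.Agent.P252

noncomputable section

variable (k : ℕ) (P V G z : ℝ → ℝ)

def fU (ρ t : ℝ) : ℝ := √(P ρ ^ 2 + t ^ 2)
def fUρ (ρ t : ℝ) : ℝ := G ρ * P ρ ^ 2 / (4 * fU P ρ t)
def fUt (ρ t : ℝ) : ℝ := t / fU P ρ t
def fUρρ (ρ t : ℝ) : ℝ :=
  (deriv G ρ * P ρ ^ 2 + G ρ ^ 2 * P ρ ^ 2 / 2) / (4 * fU P ρ t)
    - G ρ ^ 2 * P ρ ^ 4 / (16 * fU P ρ t ^ 3)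
def fUρt (ρ t : ℝ) : ℝ := -(G ρ * P ρ ^ 2 * t) / (4 * fU P ρ t ^ 3)
def fUtt (ρ t : ℝ) : ℝ := P ρ ^ 2 / fU P ρ t ^ 3

def fW (ρ t : ℝ) : ℝ := fU P ρ t ^ (k + 2) * V ρ
def fWρ (ρ t : ℝ) : ℝ :=
  (k + 2) * V ρ * (G ρ / 4) * fU P ρ t ^ k * (P ρ ^ 2 - (1 + z ρ) * fU P ρ t ^ 2)
def fWt (ρ t : ℝ) : ℝ := (k + 2) * t * fU P ρ t ^ k * V ρ
def fWρρ (ρ t : ℝ) : ℝ :=
  (k + 2) / 4 * ((deriv G ρ * V ρ - (k + 2) * (1 + z ρ) * G ρ ^ 2 * V ρ / 4) * fU P ρ t ^ k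
      * (P ρ ^ 2 - (1 + z ρ) * fU P ρ t ^ 2)
    + G ρ * V ρ * fU P ρ t ^ k * (k * G ρ * P ρ ^ 2 / (4 * fU P ρ t ^ 2)
        * (P ρ ^ 2 - (1 + z ρ) * fU P ρ t ^ 2)
      + G ρ * P ρ ^ 2 / 2 - deriv z ρ * fU P ρ t ^ 2 - (1 + z ρ) * (G ρ * P ρ ^ 2 / 2)))
def fWρt (ρ t : ℝ) : ℝ :=
  (k + 2) * t * V ρ * (G ρ / 4) * fU P ρ t ^ k
    * (k * P ρ ^ 2 / fU P ρ t ^ 2 - (k + 2) * (1 + z ρ))
def fWtt (ρ t : ℝ) : ℝ :=
  (k + 2) * V ρ * fU P ρ t ^ k * (1 + k * t ^ 2 / fU P ρ t ^ 2)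

variable {k P V G z}

theorem fU_pos (hP : ∀ ρ, 0 < P ρ) (ρ t : ℝ) : 0 < fU P ρ t := by
  unfold fU
  have := hP ρ
  positivity

theorem fU_sq (_hP : ∀ ρ, 0 < P ρ) (ρ t : ℝ) : fU P ρ t ^ 2 = P ρ ^ 2 + t ^ 2 := by
  unfold fU
  rw [Real.sq_sqrt]
  positivity

theorem lift_fst {A : ℝ → ℝ} {A' ρ t : ℝ} (h : HasDerivAt A A' ρ) :
    HasFDerivAt (fun p : ℝ × ℝ => A p.1) (A' • ContinuousLinearMap.fst ℝ ℝ ℝ) (ρ, t) :=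
  HasDerivAt.comp_hasFDerivAt (h₂ := A) (f := fun p : ℝ × ℝ => p.1) (ρ, t) h hasFDerivAt_fst

theorem hasFDerivAt_fU {ρ t : ℝ} (hP : ∀ ρ, 0 < P ρ) (hP' : HasDerivAt P (G ρ * P ρ / 4) ρ) :
    HasFDerivAt (fun p : ℝ × ℝ => fU P p.1 p.2)
      (fUρ P G ρ t • ContinuousLinearMap.fst ℝ ℝ ℝ + fUt P ρ t • ContinuousLinearMap.snd ℝ ℝ ℝ)
      (ρ, t) := by
  have h1 := lift_fst (t := t) hP'
  have h2 : HasFDerivAt (fun p : ℝ × ℝ => p.2) (ContinuousLinearMap.snd ℝ ℝ ℝ) (ρ, t) :=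
    hasFDerivAt_snd
  have hpos : P ρ ^ 2 + t ^ 2 ≠ 0 := by have := hP ρ; positivity
  have h3 := ((h1.pow 2).add (h2.pow 2)).sqrt hpos
  have hf := (fU_pos hP ρ t).ne'
  refine h3.congr_fderiv ?_
  have hfd : √(P ρ ^ 2 + t ^ 2) = fU P ρ t := rfl
  ext
  · simp [fUρ, hfd]
    field_simp
  · simp [fUt, hfd]
    field_simp

theorem hasFDerivAt_fU_inv {ρ t : ℝ} (hP : ∀ ρ, 0 < P ρ)
    (hP' : HasDerivAt P (G ρ * P ρ / 4) ρ) :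
    HasFDerivAt (fun p : ℝ × ℝ => (fU P p.1 p.2)⁻¹)
      ((-(fU P ρ t ^ 2)⁻¹) •
        (fUρ P G ρ t • ContinuousLinearMap.fst ℝ ℝ ℝ + fUt P ρ t • ContinuousLinearMap.snd ℝ ℝ ℝ))
      (ρ, t) :=
  HasDerivAt.comp_hasFDerivAt (h₂ := fun x => x⁻¹) (f := fun p : ℝ × ℝ => fU P p.1 p.2) (ρ, t)
    (hasDerivAt_inv (fU_pos hP ρ t).ne') (hasFDerivAt_fU hP hP')

theorem hasFDerivAt_fUρ {ρ t : ℝ} (hP : ∀ ρ, 0 < P ρ) (hP' : HasDerivAt P (G ρ * P ρ / 4) ρ)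
    (hG' : HasDerivAt G (deriv G ρ) ρ) :
    HasFDerivAt (fun p : ℝ × ℝ => fUρ P G p.1 p.2)
      (fUρρ P G ρ t • ContinuousLinearMap.fst ℝ ℝ ℝ + fUρt P G ρ t • ContinuousLinearMap.snd ℝ ℝ ℝ)
      (ρ, t) := by
  have h1 := lift_fst (t := t) hP'
  have h2 := lift_fst (t := t) hG'
  have h3 := hasFDerivAt_fU_inv (t := t) hP hP'
  have h4 := ((h2.mul (h1.pow 2)).mul h3).mul_const (4:ℝ)⁻¹
  have hf := (fU_pos hP ρ t).ne'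
  have he : (fun p : ℝ × ℝ => fUρ P G p.1 p.2)
      = fun p : ℝ × ℝ => (G p.1 * P p.1 ^ 2 * (fU P p.1 p.2)⁻¹) * 4⁻¹ := by
    funext p
    simp only [fUρ, div_eq_mul_inv, mul_inv]
    ring
  rw [he]
  refine h4.congr_fderiv ?_
  ext
  · simp [fUρ, fUρρ]
    field_simp
    ring
  · simp [fUt, fUρt]
    field_simp

theorem hasFDerivAt_fUt {ρ t : ℝ} (hP : ∀ ρ, 0 < P ρ) (hP' : HasDerivAt P (G ρ * P ρ / 4) ρ) :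
    HasFDerivAt (fun p : ℝ × ℝ => fUt P p.1 p.2)
      (fUρt P G ρ t • ContinuousLinearMap.fst ℝ ℝ ℝ + fUtt P ρ t • ContinuousLinearMap.snd ℝ ℝ ℝ)
      (ρ, t) := by
  have h2 : HasFDerivAt (fun p : ℝ × ℝ => p.2) (ContinuousLinearMap.snd ℝ ℝ ℝ) (ρ, t) :=
    hasFDerivAt_snd
  have h3 := hasFDerivAt_fU_inv (t := t) hP hP'
  have h4 := h2.mul h3
  have hf := (fU_pos hP ρ t).ne'
  have hsq := fU_sq hP ρ t
  have he : (fun p : ℝ × ℝ => fUt P p.1 p.2)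
      = fun p : ℝ × ℝ => p.2 * (fU P p.1 p.2)⁻¹ := by
    funext p
    simp only [fUt, div_eq_mul_inv]
  rw [he]
  refine h4.congr_fderiv ?_
  ext
  · simp [fUρ, fUρt]
    field_simp
  · simp [fUt, fUtt]
    field_simp
    linarith

theorem hasFDerivAt_fW {ρ t : ℝ} (hP : ∀ ρ, 0 < P ρ) (hP' : HasDerivAt P (G ρ * P ρ / 4) ρ)
    (hV' : HasDerivAt V (-((k : ℝ) + 2) * (1 + z ρ) * G ρ * V ρ / 4) ρ) :
    HasFDerivAt (fun p : ℝ × ℝ => fW k P V p.1 p.2)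
      (fWρ k P V G z ρ t • ContinuousLinearMap.fst ℝ ℝ ℝ
        + fWt k P V ρ t • ContinuousLinearMap.snd ℝ ℝ ℝ)
      (ρ, t) := by
  have h1 := lift_fst (t := t) hV'
  have h3 := hasFDerivAt_fU (t := t) hP hP'
  have h4 := (h3.pow (k + 2)).mul h1
  have hf := (fU_pos hP ρ t).ne'
  refine h4.congr_fderiv ?_
  ext
  · simp [fUρ, fWρ]
    field_simp
    ring
  · simp [fUt, fWt]
    field_simp
    ring

theorem hasFDerivAt_fWt {ρ t : ℝ} (hP : ∀ ρ, 0 < P ρ) (hP' : HasDerivAt P (G ρ * P ρ / 4) ρ)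
    (hV' : HasDerivAt V (-((k : ℝ) + 2) * (1 + z ρ) * G ρ * V ρ / 4) ρ) :
    HasFDerivAt (fun p : ℝ × ℝ => fWt k P V p.1 p.2)
      (fWρt k P V G z ρ t • ContinuousLinearMap.fst ℝ ℝ ℝ
        + fWtt k P V ρ t • ContinuousLinearMap.snd ℝ ℝ ℝ)
      (ρ, t) := by
  have h1 := lift_fst (t := t) hV'
  have h2 : HasFDerivAt (fun p : ℝ × ℝ => p.2) (ContinuousLinearMap.snd ℝ ℝ ℝ) (ρ, t) :=
    hasFDerivAt_snd
  have h3 := hasFDerivAt_fU (t := t) hP hP'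
  have h4 := ((h2.const_mul ((k : ℝ) + 2)).mul (h3.pow k)).mul h1
  have hf := (fU_pos hP ρ t).ne'
  have hk : (k : ℝ) * fU P ρ t ^ (k - 1) = k * fU P ρ t ^ k / fU P ρ t := by
    rcases Nat.eq_zero_or_pos k with h0 | h0
    · simp [h0]
    · rw [eq_div_iff hf, mul_assoc, ← pow_succ, Nat.sub_add_cancel h0]
  refine h4.congr_fderiv ?_
  ext
  · simp [fUρ, fWρt]
    rw [hk]
    field_simp
    ring
  · simp [fUt, fWtt]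
    rw [hk]
    field_simp
    ring

theorem hasFDerivAt_fWρ {ρ t : ℝ} (hP : ∀ ρ, 0 < P ρ) (hP' : HasDerivAt P (G ρ * P ρ / 4) ρ)
    (hG' : HasDerivAt G (deriv G ρ) ρ) (hz' : HasDerivAt z (deriv z ρ) ρ)
    (hV' : HasDerivAt V (-((k : ℝ) + 2) * (1 + z ρ) * G ρ * V ρ / 4) ρ) :
    HasFDerivAt (fun p : ℝ × ℝ => fWρ k P V G z p.1 p.2)
      (fWρρ k P V G z ρ t • ContinuousLinearMap.fst ℝ ℝ ℝ
        + fWρt k P V G z ρ t • ContinuousLinearMap.snd ℝ ℝ ℝ)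
      (ρ, t) := by
  have h1 := lift_fst (t := t) hV'
  have h2 : HasFDerivAt (fun p : ℝ × ℝ => p.2) (ContinuousLinearMap.snd ℝ ℝ ℝ) (ρ, t) :=
    hasFDerivAt_snd
  have h3 := hasFDerivAt_fU (t := t) hP hP'
  have h4 := lift_fst (t := t) hP'
  have h5 := lift_fst (t := t) hG'
  have h6 := lift_fst (t := t) hz'
  have h7 := ((((h1.const_mul ((k : ℝ) + 2)).mul (h5.mul_const (4:ℝ)⁻¹)).mul (h3.pow k))).mul
    ((h4.pow 2).sub ((h6.const_add 1).mul (h3.pow 2)))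
  have hf := (fU_pos hP ρ t).ne'
  have hk : (k : ℝ) * fU P ρ t ^ (k - 1) = k * fU P ρ t ^ k / fU P ρ t := by
    rcases Nat.eq_zero_or_pos k with h0 | h0
    · simp [h0]
    · rw [eq_div_iff hf, mul_assoc, ← pow_succ, Nat.sub_add_cancel h0]
  refine h7.congr_fderiv ?_
  ext
  · simp [fUρ, fWρρ]
    rw [hk]
    field_simp
    ring
  · simp [fUt, fWρt]
    rw [hk]
    field_simp
    ring

end

end Vale.Agent.P252
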