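import Mathlib
import Vale.Agent.P252.Partials

open Set Filter Topology
open scoped ContDiff

namespace Vale.Agent.P252

noncomputable section

variable {k : ℕ} {P V G z : ℝ → ℝ}

/-- `a + b ρ` where `a = 2 f_ρ`, `b = 4 f_ρρ`. -/
theorem aux_ab {ρ t : ℝ} (hP : ∀ ρ, 0 < P ρ)
    (h1 : 4 * ρ * deriv G ρ = G ρ * (-1 - ρ * G ρ + ((k : ℝ) + ρ * G ρ) * z ρ)) :
    2 * fUρ P G ρ t + 4 * fUρρ P G ρ t * ρ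
      = G ρ * P ρ ^ 2 / (4 * fU P ρ t) *
        ((1 + ((k : ℝ) + ρ * G ρ) * z ρ) + ρ * G ρ - ρ * G ρ * P ρ ^ 2 / fU P ρ t ^ 2) := by
  have hf := (fU_pos hP ρ t).ne'
  have e : 2 * fUρ P G ρ t + 4 * fUρρ P G ρ t * ρ
      = (2 * G ρ * P ρ ^ 2 + (4 * ρ * deriv G ρ) * P ρ ^ 2 + 2 * ρ * G ρ ^ 2 * P ρ ^ 2)
          / (4 * fU P ρ t) - ρ * G ρ ^ 2 * P ρ ^ 4 / (4 * fU P ρ t ^ 3) := by
    simp only [fUρ, fUρρ]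
    field_simp
    ring
  rw [e, h1]
  field_simp
  ring

theorem aux_det {ρ t : ℝ} (hP : ∀ ρ, 0 < P ρ)
    (h1 : 4 * ρ * deriv G ρ = G ρ * (-1 - ρ * G ρ + ((k : ℝ) + ρ * G ρ) * z ρ)) :
    (2 * fUρ P G ρ t + 4 * fUρρ P G ρ t * ρ) * fUtt P ρ t - (2 * fUρt P G ρ t) ^ 2 * ρ
      = P ρ ^ 4 * G ρ * (1 + ((k : ℝ) + ρ * G ρ) * z ρ) / (4 * fU P ρ t ^ 4) := by
  have hf := (fU_pos hP ρ t).ne'
  have hsq := fU_sq hP ρ t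
  have ht : t ^ 2 = fU P ρ t ^ 2 - P ρ ^ 2 := by linarith
  have e : (2 * fUρt P G ρ t) ^ 2 = G ρ ^ 2 * P ρ ^ 4 * t ^ 2 / (4 * fU P ρ t ^ 6) := by
    simp only [fUρt]
    field_simp
    ring
  rw [aux_ab hP h1, e, ht, fUtt]
  field_simp
  ring

theorem aux_W {ρ t : ℝ} (hP : ∀ ρ, 0 < P ρ)
    (h1 : 4 * ρ * deriv G ρ = G ρ * (-1 - ρ * G ρ + ((k : ℝ) + ρ * G ρ) * z ρ))
    (h2 : 4 * ρ * deriv z ρ = 1 - (k : ℝ) ^ 2 * z ρ ^ 2 + 2 * (ρ * G ρ) * z ρ * (1 + z ρ)) :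
    2 * fWρ k P V G z ρ t + 4 * fWρρ k P V G z ρ t * ρ
      = (k + 2) / 4 * V ρ * G ρ * fU P ρ t ^ k *
        ((2 + (-1 - ρ * G ρ + ((k : ℝ) + ρ * G ρ) * z ρ) - (k + 2) * (1 + z ρ) * (ρ * G ρ)
            + k * (ρ * G ρ) * P ρ ^ 2 / fU P ρ t ^ 2)
          * (P ρ ^ 2 - (1 + z ρ) * fU P ρ t ^ 2)
          - 2 * (ρ * G ρ) * P ρ ^ 2 * z ρ
          - (1 - (k : ℝ) ^ 2 * z ρ ^ 2 + 2 * (ρ * G ρ) * z ρ * (1 + z ρ)) * fU P ρ t ^ 2) := by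
  have hf := (fU_pos hP ρ t).ne'
  have e : 2 * fWρ k P V G z ρ t + 4 * fWρρ k P V G z ρ t * ρ
      = (k + 2) / 4 * V ρ * fU P ρ t ^ k *
        ((2 * G ρ + 4 * ρ * deriv G ρ - (k + 2) * (1 + z ρ) * (ρ * G ρ) * G ρ
            + k * (ρ * G ρ) * G ρ * P ρ ^ 2 / fU P ρ t ^ 2)
          * (P ρ ^ 2 - (1 + z ρ) * fU P ρ t ^ 2)
          - 2 * (ρ * G ρ) * G ρ * P ρ ^ 2 * z ρ
          - G ρ * (4 * ρ * deriv z ρ) * fU P ρ t ^ 2) := by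
    simp only [fWρ, fWρρ]
    field_simp
    ring
  rw [e, h1, h2]
  field_simp

theorem aux_pde {ρ t : ℝ} (hP : ∀ ρ, 0 < P ρ) (hG : 0 < G ρ)
    (hE : 0 < 1 + ((k : ℝ) + ρ * G ρ) * z ρ)
    (h1 : 4 * ρ * deriv G ρ = G ρ * (-1 - ρ * G ρ + ((k : ℝ) + ρ * G ρ) * z ρ))
    (h2 : 4 * ρ * deriv z ρ = 1 - (k : ℝ) ^ 2 * z ρ ^ 2 + 2 * (ρ * G ρ) * z ρ * (1 + z ρ)) :
    ((k : ℝ) - 1) * (2 * fWρ k P V G z ρ t) / (2 * fUρ P G ρ t)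
      + ((2 * fUρ P G ρ t + 4 * fUρρ P G ρ t * ρ) * fWtt k P V ρ t
          - 2 * (2 * fUρt P G ρ t) * (2 * fWρt k P V G z ρ t) * ρ
          + (2 * fWρ k P V G z ρ t + 4 * fWρρ k P V G z ρ t * ρ) * fUtt P ρ t)
        / ((2 * fUρ P G ρ t + 4 * fUρρ P G ρ t * ρ) * fUtt P ρ t - (2 * fUρt P G ρ t) ^ 2 * ρ)
      = 0 := by
  have hf := (fU_pos hP ρ t).ne'
  have hp := (hP ρ).ne'
  have hg := hG.ne'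
  have hsq := fU_sq hP ρ t
  have ht : t ^ 2 = fU P ρ t ^ 2 - P ρ ^ 2 := by linarith
  have e : 2 * (2 * fUρt P G ρ t) * (2 * fWρt k P V G z ρ t) * ρ
      = -(G ρ ^ 2 * P ρ ^ 2 * t ^ 2 / (2 * fU P ρ t ^ 3)) * ((k + 2) * V ρ * fU P ρ t ^ k
          * (k * P ρ ^ 2 / fU P ρ t ^ 2 - (k + 2) * (1 + z ρ))) * ρ := by
    simp only [fUρt, fWρt]
    field_simp
    ring
  rw [aux_det hP h1, aux_W hP h1 h2, aux_ab hP h1, e, ht, fWtt, ht, fUtt, fWρ, fUρ]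
  have hE' := hE.ne'
  generalize hEE : 1 + ((k : ℝ) + ρ * G ρ) * z ρ = E at hE' ⊢
  have hEz : ((k : ℝ) + ρ * G ρ) * z ρ = E - 1 := by linarith
  rw [hEz]
  field_simp
  rw [← hEE]
  ring

end

end Vale.Agent.P252
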