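import Mathlib

open Matrix
open scoped ContDiff

namespace Vale.Agent.P252

/-- The Hessian matrix `(∂ᵢ∂ⱼ u)(x)` of a real function `u` on `ℝⁿ`. -/
noncomputable def hessian {n : ℕ} (u : EuclideanSpace ℝ (Fin n) → ℝ)
    (x : EuclideanSpace ℝ (Fin n)) : Matrix (Fin n) (Fin n) ℝ :=
  Matrix.of fun i j =>
    fderiv ℝ (fun y => fderiv ℝ u y (EuclideanSpace.single j 1)) x (EuclideanSpace.single i 1)

/-- `w = (det D²u)^(-(n+1)/(n+2))`. -/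
noncomputable def affineWeight {n : ℕ} (u : EuclideanSpace ℝ (Fin n) → ℝ)
    (x : EuclideanSpace ℝ (Fin n)) : ℝ :=
  (hessian u x).det ^ (-((n : ℝ) + 1) / ((n : ℝ) + 2))

/-- The affine maximal equation `∑ᵢⱼ Uⁱʲ ∂ᵢⱼ w = 0` on all of `ℝⁿ`, where
`Uⁱʲ = det(D²u) (D²u)⁻¹ᵢⱼ` and `w = (det D²u)^(-(n+1)/(n+2))`. -/
def SolvesAffineMaximal {n : ℕ} (u : EuclideanSpace ℝ (Fin n) → ℝ) : Prop :=
  ∀ x, ∑ i, ∑ j,
    ((hessian u x).det * (hessian u x)⁻¹ i j) * hessian (affineWeight u) x i j = 0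

/-- `u` is a polynomial of degree at most two:
`u(x) = ½ xᵀ A x + b·x + c` for some matrix `A`, vector `b` and constant `c`. -/
def IsQuadratic {n : ℕ} (u : EuclideanSpace ℝ (Fin n) → ℝ) : Prop :=
  ∃ (A : Matrix (Fin n) (Fin n) ℝ) (b : Fin n → ℝ) (c : ℝ), ∀ x : EuclideanSpace ℝ (Fin n),
    u x = 1 / 2 * (x.ofLp ⬝ᵥ A *ᵥ x.ofLp) + b ⬝ᵥ x.ofLp + c

end Vale.Agent.P252
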