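import Mathlib

open Set Matrix

namespace Vale.Agent.P252

/-- the two-column matrix with columns `y`, `e` -/
def twoCol {n : ℕ} (y e : Fin n → ℝ) : Matrix (Fin n) (Fin 2) ℝ :=
  Matrix.of fun i j => if j = 0 then y i else e i

theorem radial_eq {n : ℕ} (b c d : ℝ) (y e : Fin n → ℝ) :
    b • vecMulVec y y + c • (vecMulVec y e + vecMulVec e y) + d • vecMulVec e e
      = twoCol y e * (!![b, c; c, d] * (twoCol y e)ᵀ) := by
  ext i j
  simp only [twoCol, Matrix.mul_apply, vecMulVec, Fin.sum_univ_two, Matrix.add_apply,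
    Matrix.smul_apply, Matrix.of_apply, Matrix.transpose_apply, smul_eq_mul]
  simp
  ring

theorem twoCol_gram {n : ℕ} (ρ : ℝ) (y e : Fin n → ℝ)
    (hy : y ⬝ᵥ y = ρ) (he : e ⬝ᵥ e = 1) (hye : y ⬝ᵥ e = 0) :
    (twoCol y e)ᵀ * twoCol y e = !![ρ, 0; 0, 1] := by
  have hey : e ⬝ᵥ y = 0 := by rw [dotProduct_comm]; exact hye
  ext i j
  fin_cases i <;> fin_cases j <;>
    simp [twoCol, Matrix.mul_apply] <;>
    simpa [dotProduct] using (by first | exact hy | exact he | exact hye | exact hey)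

theorem radial_factor {n : ℕ} (a b c d : ℝ) (y e : Fin n → ℝ) (ha : a ≠ 0) :
    a • (1 : Matrix (Fin n) (Fin n) ℝ) + b • vecMulVec y y
      + c • (vecMulVec y e + vecMulVec e y) + (d - a) • vecMulVec e e
      = a • (1 + twoCol y e * (a⁻¹ • (!![b, c; c, d - a] * (twoCol y e)ᵀ))) := by
  have h : a • (1 + twoCol y e * (a⁻¹ • (!![b, c; c, d - a] * (twoCol y e)ᵀ)))
      = a • (1 : Matrix (Fin n) (Fin n) ℝ)
        + (twoCol y e * (!![b, c; c, d - a] * (twoCol y e)ᵀ)) := by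
    rw [Matrix.mul_smul, smul_add, smul_smul a a⁻¹, mul_inv_cancel₀ ha, one_smul]
  rw [h, ← radial_eq]
  simp only [add_assoc]

theorem det_radial {n : ℕ} (hn : 2 ≤ n) (a b c d ρ : ℝ) (y e : Fin n → ℝ) (ha : a ≠ 0)
    (hy : y ⬝ᵥ y = ρ) (he : e ⬝ᵥ e = 1) (hye : y ⬝ᵥ e = 0) :
    (a • (1 : Matrix (Fin n) (Fin n) ℝ) + b • vecMulVec y y
      + c • (vecMulVec y e + vecMulVec e y) + (d - a) • vecMulVec e e).det
    = a ^ (n - 2) * ((a + b * ρ) * d - c ^ 2 * ρ) := by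
  rw [radial_factor a b c d y e ha, Matrix.det_smul, Matrix.det_one_add_mul_comm,
    Matrix.smul_mul, Matrix.mul_assoc,
    twoCol_gram ρ y e hy he hye, Fintype.card_fin]
  obtain ⟨m, rfl⟩ : ∃ m, n = m + 2 := ⟨n - 2, by omega⟩
  simp [Matrix.det_fin_two]
  field_simp
  ring

theorem radial_form {n : ℕ} (a b c d : ℝ) (y e : Fin n → ℝ) :
    a • (1 : Matrix (Fin n) (Fin n) ℝ) + b • vecMulVec y y
      + c • (vecMulVec y e + vecMulVec e y) + (d - a) • vecMulVec e e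
      = a • (1 : Matrix (Fin n) (Fin n) ℝ)
        + twoCol y e * !![b, c; c, d - a] * (twoCol y e)ᵀ := by
  rw [Matrix.mul_assoc, ← radial_eq]
  simp only [add_assoc]

theorem radial_mul {n : ℕ} (a a' ρ : ℝ) (C C' : Matrix (Fin 2) (Fin 2) ℝ) (y e : Fin n → ℝ)
    (hy : y ⬝ᵥ y = ρ) (he : e ⬝ᵥ e = 1) (hye : y ⬝ᵥ e = 0) :
    (a • (1 : Matrix (Fin n) (Fin n) ℝ) + twoCol y e * C * (twoCol y e)ᵀ) *
      (a' • (1 : Matrix (Fin n) (Fin n) ℝ) + twoCol y e * C' * (twoCol y e)ᵀ)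
      = (a * a') • (1 : Matrix (Fin n) (Fin n) ℝ)
        + twoCol y e * (a • C' + a' • C + C * !![ρ, 0; 0, 1] * C') * (twoCol y e)ᵀ := by
  have hg := twoCol_gram ρ y e hy he hye
  have h : twoCol y e * C * (twoCol y e)ᵀ * (twoCol y e * C' * (twoCol y e)ᵀ)
      = twoCol y e * (C * !![ρ, 0; 0, 1] * C') * (twoCol y e)ᵀ := by
    rw [← hg]
    simp only [Matrix.mul_assoc]
  rw [Matrix.add_mul, Matrix.mul_add, Matrix.mul_add, h]
  simp only [Matrix.smul_mul, Matrix.mul_smul, Matrix.one_mul, Matrix.mul_one, Matrix.mul_add,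
    Matrix.add_mul, smul_smul]
  rw [mul_comm a' a]
  abel

theorem radial_trace {n : ℕ} (a ρ : ℝ) (M : Matrix (Fin 2) (Fin 2) ℝ) (y e : Fin n → ℝ)
    (hy : y ⬝ᵥ y = ρ) (he : e ⬝ᵥ e = 1) (hye : y ⬝ᵥ e = 0) :
    (a • (1 : Matrix (Fin n) (Fin n) ℝ) + twoCol y e * M * (twoCol y e)ᵀ).trace
      = n * a + (M 0 0 * ρ + M 1 1) := by
  have hg := twoCol_gram ρ y e hy he hye
  rw [Matrix.trace_add, Matrix.trace_smul, Matrix.trace_one, Matrix.mul_assoc,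
    Matrix.trace_mul_comm, Matrix.mul_assoc, hg]
  simp [Matrix.trace, Fin.sum_univ_two, Matrix.mul_apply]
  ring

theorem trace_inv_radial {n : ℕ} (a b c d a' b' c' d' ρ : ℝ) (y e : Fin n → ℝ) (ha : a ≠ 0)
    (hdet : (a + b * ρ) * d - c ^ 2 * ρ ≠ 0)
    (hy : y ⬝ᵥ y = ρ) (he : e ⬝ᵥ e = 1) (hye : y ⬝ᵥ e = 0) :
    ((a • (1 : Matrix (Fin n) (Fin n) ℝ) + b • vecMulVec y y
      + c • (vecMulVec y e + vecMulVec e y) + (d - a) • vecMulVec e e)⁻¹ *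
     (a' • (1 : Matrix (Fin n) (Fin n) ℝ) + b' • vecMulVec y y
      + c' • (vecMulVec y e + vecMulVec e y) + (d' - a') • vecMulVec e e)).trace
    = ((n : ℝ) - 2) * a' / a
      + ((a + b * ρ) * d' - 2 * c * c' * ρ + (a' + b' * ρ) * d) / ((a + b * ρ) * d - c ^ 2 * ρ) := by
  set Δ := (a + b * ρ) * d - c ^ 2 * ρ with hΔ
  have hinv : (a • (1 : Matrix (Fin n) (Fin n) ℝ) + b • vecMulVec y y
      + c • (vecMulVec y e + vecMulVec e y) + (d - a) • vecMulVec e e)⁻¹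
      = a⁻¹ • (1 : Matrix (Fin n) (Fin n) ℝ)
        + twoCol y e * !![(c ^ 2 - b * d) / (a * Δ), -c / Δ; -c / Δ, (a + b * ρ) / Δ - a⁻¹]
          * (twoCol y e)ᵀ := by
    apply Matrix.inv_eq_right_inv
    rw [radial_form, radial_mul a a⁻¹ ρ _ _ y e hy he hye, mul_inv_cancel₀ ha, one_smul]
    have hz : a • !![(c ^ 2 - b * d) / (a * Δ), -c / Δ; -c / Δ, (a + b * ρ) / Δ - a⁻¹]
        + a⁻¹ • !![b, c; c, d - a]
        + !![b, c; c, d - a] * !![ρ, 0; 0, 1]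
          * !![(c ^ 2 - b * d) / (a * Δ), -c / Δ; -c / Δ, (a + b * ρ) / Δ - a⁻¹]
        = (0 : Matrix (Fin 2) (Fin 2) ℝ) := by
      ext i j
      fin_cases i <;> fin_cases j <;>
        simp [Matrix.mul_apply, Fin.sum_univ_two] <;> field_simp <;> rw [hΔ] <;> ring
    rw [hz]
    simp
  rw [hinv, radial_form a' b' c' d' y e, radial_mul a⁻¹ a' ρ _ _ y e hy he hye,
    radial_trace _ ρ _ y e hy he hye]
  simp [Matrix.mul_apply, Fin.sum_univ_two]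
  field_simp
  rw [hΔ]
  ring

end Vale.Agent.P252
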