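import Mathlib

open Set Metric
open scoped ContDiff NNReal Topology

namespace Vale.Agent.P252

/-- Global existence for a bounded, globally Lipschitz autonomous vector field. -/
theorem exists_global_solution {E : Type*} [NormedAddCommGroup E] [NormedSpace ℝ E]
    [CompleteSpace E] (F : E → E) (K C : ℝ≥0) (hK : LipschitzWith K F) (hC : ∀ x, ‖F x‖ ≤ C)
    (x₀ : E) : ∃ α : ℝ → E, α 0 = x₀ ∧ ∀ t, HasDerivAt α (F (α t)) t := by
  -- solutions on `[-n, n]`
  have hn : ∀ n : ℕ, ∃ α : ℝ → E, α 0 = x₀ ∧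
      ∀ t ∈ Ioo (-(n : ℝ)) n, HasDerivAt α (F (α t)) t := by
    intro n
    have hpl : IsPicardLindelof (fun _ => F) (tmin := -(n : ℝ)) (tmax := n)
        ⟨0, by simp⟩ x₀ (C * n) 0 C K := by
      apply IsPicardLindelof.of_time_independent
      · intro x _; exact hC x
      · exact hK.lipschitzOnWith
      · simp
    obtain ⟨α, h0, hα⟩ := hpl.exists_eq_forall_mem_Icc_hasDerivWithinAt₀
    exact ⟨α, h0, fun t ht => (hα t (Ioo_subset_Icc_self ht)).hasDerivAt
      (Icc_mem_nhds ht.1 ht.2)⟩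
  choose α h0 hα using hn
  have huniq : ∀ m n : ℕ, m ≤ n → ∀ t ∈ Ioo (-(m : ℝ)) m, α m t = α n t := by
    intro m n hmn t ht
    have hmn' : (m : ℝ) ≤ n := by exact_mod_cast hmn
    have hm0 : (0 : ℝ) < m := by
      rcases ht with ⟨h1, h2⟩; linarith
    have := ODE_solution_unique_of_mem_Ioo (v := fun _ => F) (s := fun _ => univ) (K := K)
      (f := α m) (g := α n) (a := -(m : ℝ)) (b := m) (t₀ := 0)
      (fun t _ => hK.lipschitzOnWith) ⟨by linarith, hm0⟩
      (fun t ht => ⟨hα m t ht, trivial⟩)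
      (fun t ht => ⟨hα n t ⟨by linarith [ht.1], by linarith [ht.2]⟩, trivial⟩)
      (by rw [h0, h0])
    exact this ht
  refine ⟨fun t => α (⌈|t|⌉₊ + 1) t, by simp [h0], ?_⟩
  intro t
  -- near `t`, the function agrees with `α (N)` where `N = ⌈|t|⌉₊ + 2`
  set N : ℕ := ⌈|t|⌉₊ + 2 with hN
  have htN : |t| < (N : ℝ) - 1 := by
    have := Nat.le_ceil |t|
    rw [hN]; push_cast; linarith
  have key : ∀ s : ℝ, |s| < (N : ℝ) - 1 → α (⌈|s|⌉₊ + 1) s = α N s := by
    intro s hs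
    have h1 : ⌈|s|⌉₊ + 1 ≤ N := by
      have : ⌈|s|⌉₊ ≤ N - 1 := by
        apply Nat.ceil_le.2
        have hN1 : 1 ≤ N := by omega
        push_cast [Nat.cast_sub hN1]
        exact hs.le
      omega
    apply huniq _ _ h1
    have := Nat.le_ceil |s|
    push_cast
    constructor
    · have := neg_abs_le s; linarith
    · have := le_abs_self s; linarith
  have hev : (fun s => α (⌈|s|⌉₊ + 1) s) =ᶠ[𝓝 t] α N := by
    have : ∀ᶠ s in 𝓝 t, |s| < (N : ℝ) - 1 := by
      exact (continuous_abs.tendsto t).eventually_lt_const htN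
    exact this.mono key
  have hd := hα N t ⟨by have := neg_abs_le t; linarith, by have := le_abs_self t; linarith⟩
  show HasDerivAt _ (F (α (⌈|t|⌉₊ + 1) t)) t
  rw [key t htN]
  exact hd.congr_of_eventuallyEq hev

/-- A function which is nonincreasing whenever it is positive stays nonpositive. -/
theorem nonpos_of_deriv_nonpos_of_pos {φ φ' : ℝ → ℝ} (hd : ∀ t, HasDerivAt φ (φ' t) t)
    (h0 : φ 0 ≤ 0) (h : ∀ t, 0 ≤ t → 0 < φ t → φ' t ≤ 0) : ∀ t, 0 ≤ t → φ t ≤ 0 := by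
  intro t₁ ht₁
  by_contra hcon
  push Not at hcon
  have hcont : Continuous φ := continuous_iff_continuousAt.2 fun t => (hd t).continuousAt
  set S : Set ℝ := Icc 0 t₁ ∩ {s | φ s ≤ 0} with hS
  have hScomp : IsCompact S := isCompact_Icc.inter_right (isClosed_le hcont continuous_const)
  have hSne : S.Nonempty := ⟨0, ⟨le_refl _, ht₁⟩, h0⟩
  have hmem := hScomp.sSup_mem hSne
  set s₀ := sSup S with hs₀
  have hlt : s₀ < t₁ := by
    rcases lt_or_eq_of_le hmem.1.2 with h' | h'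
    · exact h'
    · exfalso; have := hmem.2; rw [h'] at this; simp at this; linarith
  have hpos : ∀ s, s₀ < s → s ≤ t₁ → 0 < φ s := by
    intro s hs hst
    by_contra hc
    push Not at hc
    have : s ∈ S := ⟨⟨by linarith [hmem.1.1], hst⟩, hc⟩
    have := le_csSup hScomp.bddAbove this
    linarith
  have hanti : AntitoneOn φ (Icc s₀ t₁) := by
    apply antitoneOn_of_deriv_nonpos (convex_Icc _ _) hcont.continuousOn
      (fun s _ => (hd s).differentiableAt.differentiableWithinAt)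
    intro s hs
    rw [interior_Icc] at hs
    rw [(hd s).deriv]
    exact h s (by linarith [hmem.1.1, hs.1]) (hpos s hs.1 hs.2.le)
  have := hanti (left_mem_Icc.2 hlt.le) (right_mem_Icc.2 hlt.le) hlt.le
  have h2 : φ s₀ ≤ 0 := hmem.2
  linarith

/-- A function with `φ 0 > 0` satisfying `φ' ≥ -c φ` while positive stays positive. -/
theorem pos_of_deriv_ge {φ φ' : ℝ → ℝ} (c : ℝ) (hd : ∀ t, HasDerivAt φ (φ' t) t)
    (h0 : 0 < φ 0) (h : ∀ t, 0 ≤ t → 0 < φ t → -c * φ t ≤ φ' t) : ∀ t, 0 ≤ t → 0 < φ t := by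
  intro t₁ ht₁
  by_contra hcon
  push Not at hcon
  have hcont : Continuous φ := continuous_iff_continuousAt.2 fun t => (hd t).continuousAt
  set S : Set ℝ := Icc 0 t₁ ∩ {s | φ s ≤ 0} with hS
  have hScomp : IsCompact S := isCompact_Icc.inter_right (isClosed_le hcont continuous_const)
  have hSne : S.Nonempty := ⟨t₁, ⟨ht₁, le_refl _⟩, hcon⟩
  have hmem := hScomp.sInf_mem hSne
  set s₀ := sInf S with hs₀
  have hs₀pos : 0 ≤ s₀ := hmem.1.1
  have hpos : ∀ s, 0 ≤ s → s < s₀ → 0 < φ s := by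
    intro s hs hst
    by_contra hc
    push Not at hc
    have : s ∈ S := ⟨⟨hs, by linarith [hmem.1.2]⟩, hc⟩
    have := csInf_le hScomp.bddBelow this
    linarith
  have hmono : MonotoneOn (fun s => φ s * Real.exp (c * s)) (Icc 0 s₀) := by
    have hd2 : ∀ s, HasDerivAt (fun s => φ s * Real.exp (c * s))
        (φ' s * Real.exp (c * s) + φ s * (Real.exp (c * s) * (c * 1))) s := fun s =>
      (hd s).mul (((hasDerivAt_id s).const_mul c).exp)
    apply monotoneOn_of_deriv_nonneg (convex_Icc _ _)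
      (Continuous.continuousOn (continuous_iff_continuousAt.2 fun t => (hd2 t).continuousAt))
      (fun s _ => (hd2 s).differentiableAt.differentiableWithinAt)
    intro s hs
    rw [interior_Icc] at hs
    rw [(hd2 s).deriv]
    have h1 := h s hs.1.le (hpos s hs.1.le hs.2)
    have h2 : 0 < Real.exp (c * s) := Real.exp_pos _
    nlinarith
  have h1 := hmono (left_mem_Icc.2 hs₀pos) (right_mem_Icc.2 hs₀pos) hs₀pos
  simp only [mul_zero, Real.exp_zero, mul_one] at h1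
  have h2 : φ s₀ ≤ 0 := hmem.2
  have h3 : 0 < Real.exp (c * s₀) := Real.exp_pos _
  nlinarith

/-- The planar vector field. -/
def planarField (k : ℝ) (p : ℝ × ℝ) : ℝ × ℝ :=
  (p.1 * (3 - p.1 + (k + p.1) * p.2), 1 - k ^ 2 * p.2 ^ 2 + 2 * p.1 * p.2 * (1 + p.2))

/-- Truncation of a real number to `[0, a]`. -/
def trunc (a x : ℝ) : ℝ := max 0 (min x a)

theorem trunc_nonneg (a x : ℝ) : 0 ≤ trunc a x := le_max_left _ _

theorem trunc_le {a : ℝ} (ha : 0 ≤ a) (x : ℝ) : trunc a x ≤ a :=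
  max_le ha (min_le_right _ _)

theorem trunc_of_mem {a x : ℝ} (h0 : 0 ≤ x) (h1 : x ≤ a) : trunc a x = x := by
  unfold trunc; rw [min_eq_left h1, max_eq_right h0]

theorem trunc_of_ge {a x : ℝ} (ha : 0 ≤ a) (h1 : a ≤ x) : trunc a x = a := by
  unfold trunc; rw [min_eq_right h1, max_eq_right ha]

theorem trunc_le_self {a x : ℝ} (h0 : 0 ≤ x) : trunc a x ≤ x :=
  max_le h0 (min_le_left _ _)

theorem lipschitz_trunc (a : ℝ) : LipschitzWith 1 (trunc a) :=
  (LipschitzWith.id.min_const a).const_max 0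

/-- The truncated planar vector field. -/
def truncField (k b : ℝ) (p : ℝ × ℝ) : ℝ × ℝ :=
  planarField k (trunc 9 p.1, trunc b p.2)

theorem contDiff_planarField (k : ℝ) : ContDiff ℝ ∞ (planarField k) := by
  unfold planarField
  fun_prop

theorem exists_lipschitz_truncField (k b : ℝ) (hb : 0 ≤ b) :
    ∃ K C : ℝ≥0, LipschitzWith K (truncField k b) ∧ ∀ x, ‖truncField k b x‖ ≤ C := by
  have hcomp : IsCompact (Icc (0 : ℝ) 9 ×ˢ Icc (0 : ℝ) b) := isCompact_Icc.prod isCompact_Icc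
  have hmaps : ∀ p : ℝ × ℝ, (trunc 9 p.1, trunc b p.2) ∈ Icc (0 : ℝ) 9 ×ˢ Icc (0 : ℝ) b :=
    fun p => ⟨⟨trunc_nonneg _ _, trunc_le (by norm_num) _⟩, ⟨trunc_nonneg _ _, trunc_le hb _⟩⟩
  have hl : LocallyLipschitz (planarField k) :=
    ((contDiff_planarField k).of_le (by simp)).locallyLipschitz
  obtain ⟨K, hK⟩ := (hl.locallyLipschitzOn
    (s := Icc (0 : ℝ) 9 ×ˢ Icc (0 : ℝ) b)).exists_lipschitzOnWith_of_compact hcomp
  have htr : LipschitzWith 1 (fun p : ℝ × ℝ => (trunc 9 p.1, trunc b p.2)) := by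
    have h1 := (lipschitz_trunc 9).comp (LipschitzWith.prod_fst (α := ℝ) (β := ℝ))
    have h2 := (lipschitz_trunc b).comp (LipschitzWith.prod_snd (α := ℝ) (β := ℝ))
    have h3 := h1.prodMk h2
    simpa using h3
  obtain ⟨C, hC⟩ := (hcomp.image (contDiff_planarField k).continuous).isBounded.exists_norm_le
  refine ⟨K, ⟨max C 0, le_max_right _ _⟩, ?_, ?_⟩
  · have := hK.comp (htr.lipschitzOnWith (s := univ)) (fun p _ => hmaps p)
    rw [mul_one, lipschitzOnWith_univ] at this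
    exact this
  · intro x
    exact (hC _ ⟨_, hmaps x, rfl⟩).trans (le_max_left _ _)

/-- Trapping in the autonomous variable. -/
theorem exists_trapped (k : ℝ) (hk : 9 ≤ k) (g₀ z₀ : ℝ) (hg : 0 < g₀) (hg' : g₀ ≤ 9)
    (hz : 0 < z₀) (hz' : z₀ ≤ 6 / (k + 9)) :
    ∃ α : ℝ → ℝ × ℝ, α 0 = (g₀, z₀) ∧ Continuous α ∧
      (∀ t, 0 ≤ t → HasDerivAt α (planarField k (α t)) t) ∧
      ∀ t, 0 ≤ t → 0 < (α t).1 ∧ (α t).1 ≤ 9 ∧ 0 < (α t).2 ∧ (α t).2 ≤ 6 / (k + 9) := by
  set b : ℝ := 6 / (k + 9) with hb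
  have hk9 : (0 : ℝ) < k + 9 := by linarith
  have hbpos : 0 < b := by positivity
  obtain ⟨K, C, hK, hC⟩ := exists_lipschitz_truncField k b hbpos.le
  obtain ⟨α, h0, hα⟩ := exists_global_solution (truncField k b) K C hK hC (g₀, z₀)
  have hcont : Continuous α := continuous_iff_continuousAt.2 fun t => (hα t).continuousAt
  have hd1 : ∀ t, HasDerivAt (fun s => (α s).1) (truncField k b (α t)).1 t := fun t =>
    (ContinuousLinearMap.fst ℝ ℝ ℝ).hasFDerivAt.comp_hasDerivAt t (hα t)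
  have hd2 : ∀ t, HasDerivAt (fun s => (α s).2) (truncField k b (α t)).2 t := fun t =>
    (ContinuousLinearMap.snd ℝ ℝ ℝ).hasFDerivAt.comp_hasDerivAt t (hα t)
  have hbk : (k + 9) * b = 6 := by rw [hb]; field_simp
  -- g ≤ 9
  have hg9 : ∀ t, 0 ≤ t → (α t).1 - 9 ≤ 0 := by
    apply nonpos_of_deriv_nonpos_of_pos (fun t => (hd1 t).sub_const 9)
    · rw [h0]; simpa using hg'
    · intro t _ ht
      have e : trunc 9 (α t).1 = 9 := trunc_of_ge (by norm_num) (by linarith)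
      have e2 := trunc_le hbpos.le (α t).2
      simp only [truncField, planarField, e]
      nlinarith
  have hz6 : ∀ t, 0 ≤ t → (α t).2 - b ≤ 0 := by
    apply nonpos_of_deriv_nonpos_of_pos (fun t => (hd2 t).sub_const b)
    · rw [h0]; simpa using hz'
    · intro t _ ht
      have e : trunc b (α t).2 = b := trunc_of_ge hbpos.le (by linarith)
      have e1 := trunc_le (show (0:ℝ) ≤ 9 by norm_num) (α t).1
      have e2 := trunc_nonneg 9 (α t).1
      simp only [truncField, planarField, e]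
      have h18 : 2 * trunc 9 (α t).1 * b * (1 + b) ≤ 18 * b * (1 + b) := by
        have : 0 ≤ b * (1 + b) := by positivity
        nlinarith
      have hmain : 1 - k ^ 2 * b ^ 2 + 18 * b * (1 + b) ≤ 0 := by
        have hsq : (k + 9) ^ 2 * (1 - k ^ 2 * b ^ 2 + 18 * b * (1 + b)) ≤ 0 := by
          have : (k + 9) ^ 2 * (1 - k ^ 2 * b ^ 2 + 18 * b * (1 + b)) =
              (k + 9) ^ 2 - k ^ 2 * ((k + 9) * b) ^ 2 + 18 * (k + 9) * ((k + 9) * b)
                + 18 * ((k + 9) * b) ^ 2 := by ring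
          rw [this, hbk]
          nlinarith
        have h2 : 0 < (k + 9) ^ 2 := by positivity
        by_contra hc
        push Not at hc
        have := mul_pos h2 hc
        linarith
      linarith
  have hgpos : ∀ t, 0 ≤ t → 0 < (α t).1 := by
    apply pos_of_deriv_ge 6 hd1
    · rw [h0]; exact hg
    · intro t _ ht
      have e1 := trunc_le (show (0:ℝ) ≤ 9 by norm_num) (α t).1
      have e2 := trunc_nonneg 9 (α t).1
      have e3 := trunc_nonneg b (α t).2
      have e4 := trunc_le_self (a := 9) ht.le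
      simp only [truncField, planarField]
      have h5 : 0 ≤ (k + trunc 9 (α t).1) * trunc b (α t).2 := by
        apply mul_nonneg _ e3
        linarith
      nlinarith
  have hzpos : ∀ t, 0 ≤ t → 0 < (α t).2 := by
    apply pos_of_deriv_ge (k ^ 2 * b) hd2
    · rw [h0]; exact hz
    · intro t _ ht
      have e1 := trunc_nonneg 9 (α t).1
      have e2 := trunc_nonneg b (α t).2
      have e3 := trunc_le hbpos.le (α t).2
      have e4 := trunc_le_self (a := b) ht.le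
      simp only [truncField, planarField]
      have h5 : 0 ≤ 2 * trunc 9 (α t).1 * trunc b (α t).2 * (1 + trunc b (α t).2) := by
        positivity
      have h6 : trunc b (α t).2 ^ 2 ≤ b * (α t).2 := by nlinarith
      have h7 : k ^ 2 * trunc b (α t).2 ^ 2 ≤ k ^ 2 * (b * (α t).2) := by
        apply mul_le_mul_of_nonneg_left h6 (by positivity)
      nlinarith
  refine ⟨α, h0, hcont, ?_, ?_⟩
  · intro t ht
    have e1 : trunc 9 (α t).1 = (α t).1 := trunc_of_mem (hgpos t ht).le (by linarith [hg9 t ht])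
    have e2 : trunc b (α t).2 = (α t).2 := trunc_of_mem (hzpos t ht).le (by linarith [hz6 t ht])
    have e3 : truncField k b (α t) = planarField k (α t) := by
      simp only [truncField, e1, e2]
    rw [← e3]
    exact hα t
  · intro t ht
    exact ⟨hgpos t ht, by linarith [hg9 t ht], hzpos t ht, by linarith [hz6 t ht]⟩

/-- TASK B1 -/
theorem global_planar (k : ℝ) (hk : 9 ≤ k) (ρ₀ g₀ z₀ : ℝ) (hρ : 0 < ρ₀) (hg : 0 < g₀) (hg' : g₀ ≤ 9)
    (hz : 0 < z₀) (hz' : z₀ ≤ 6 / (k + 9)) :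
    ∃ g z : ℝ → ℝ, g ρ₀ = g₀ ∧ z ρ₀ = z₀ ∧
      ContinuousOn g (Ici ρ₀) ∧ ContinuousOn z (Ici ρ₀) ∧
      ContDiffOn ℝ ∞ g (Ioi ρ₀) ∧ ContDiffOn ℝ ∞ z (Ioi ρ₀) ∧
      ∀ ρ ∈ Ioi ρ₀, 0 < g ρ ∧ g ρ ≤ 9 ∧ 0 < z ρ ∧ z ρ ≤ 6 / (k + 9) ∧
        4 * ρ * deriv g ρ = g ρ * (3 - g ρ + (k + g ρ) * z ρ) ∧
        4 * ρ * deriv z ρ = 1 - k ^ 2 * z ρ ^ 2 + 2 * g ρ * z ρ * (1 + z ρ) := by
  obtain ⟨α, h0, hcont, hα, htrap⟩ := exists_trapped k hk g₀ z₀ hg hg' hz hz'
  set σ : ℝ → ℝ := fun ρ => (Real.log ρ - Real.log ρ₀) / 4 with hσ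
  have hσ0 : σ ρ₀ = 0 := by simp [hσ]
  have hσpos : ∀ ρ ∈ Ioi ρ₀, 0 < σ ρ := by
    intro ρ hρ'
    have : Real.log ρ₀ < Real.log ρ := Real.log_lt_log hρ hρ'
    simp only [hσ]; linarith
  have hσd : ∀ ρ ∈ Ioi ρ₀, HasDerivAt σ (ρ⁻¹ / 4) ρ := by
    intro ρ hρ'
    have hρpos : 0 < ρ := lt_trans hρ hρ'
    exact ((Real.hasDerivAt_log hρpos.ne').sub_const _).div_const 4
  have hσc : ContinuousOn σ (Ici ρ₀) := by
    apply ContinuousOn.div_const
    apply ContinuousOn.sub _ continuousOn_const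
    apply Real.continuousOn_log.mono
    intro ρ hρ'
    have : 0 < ρ := lt_of_lt_of_le hρ hρ'
    simpa using this.ne'
  have hσs : ContDiffOn ℝ ∞ σ (Ioi ρ₀) := by
    apply ContDiffOn.div_const
    apply ContDiffOn.sub _ contDiffOn_const
    intro ρ hρ'
    have : 0 < ρ := lt_trans hρ hρ'
    exact (Real.contDiffAt_log.2 this.ne').contDiffWithinAt
  -- smoothness of the trajectory
  have hαs : ∀ t, 0 < t → ContDiffAt ℝ ∞ α t := by
    intro t ht
    have h1 : ContDiffOn ℝ ((⊤ : ℕ∞) : WithTop ℕ∞) α (Icc 0 (t + 1)) := by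
      apply ODE.contDiffOn_enat_Icc_of_hasDerivWithinAt (n := ⊤) (f := fun _ => planarField k)
        (u := univ)
      · have : (Function.uncurry fun (_ : ℝ) => planarField k) = planarField k ∘ Prod.snd := rfl
        rw [this]
        exact ((contDiff_planarField k).comp contDiff_snd).contDiffOn
      · intro s hs
        exact (hα s hs.1).hasDerivWithinAt
      · exact fun _ _ => trivial
    exact h1.contDiffAt (Icc_mem_nhds ht (by linarith))
  refine ⟨fun ρ => (α (σ ρ)).1, fun ρ => (α (σ ρ)).2, ?_, ?_, ?_, ?_, ?_, ?_, ?_⟩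
  · simp [hσ0, h0]
  · simp [hσ0, h0]
  · exact (continuous_fst.comp hcont).comp_continuousOn hσc
  · exact (continuous_snd.comp hcont).comp_continuousOn hσc
  · intro ρ hρ'
    have h1 := (contDiff_fst (𝕜 := ℝ) (E := ℝ) (F := ℝ) (n := ∞)).contDiffAt.comp (σ ρ)
      (hαs _ (hσpos ρ hρ'))
    exact (h1.comp_contDiffWithinAt ρ (hσs ρ hρ'))
  · intro ρ hρ'
    have h1 := (contDiff_snd (𝕜 := ℝ) (E := ℝ) (F := ℝ) (n := ∞)).contDiffAt.comp (σ ρ)
      (hαs _ (hσpos ρ hρ'))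
    exact (h1.comp_contDiffWithinAt ρ (hσs ρ hρ'))
  · intro ρ hρ'
    have hρpos : 0 < ρ := lt_trans hρ hρ'
    obtain ⟨t1, t2, t3, t4⟩ := htrap (σ ρ) (hσpos ρ hρ').le
    have hd := (hα (σ ρ) (hσpos ρ hρ').le).scomp ρ (hσd ρ hρ')
    have hd1 : HasDerivAt (fun ρ => (α (σ ρ)).1)
        ((ρ⁻¹ / 4) * (planarField k (α (σ ρ))).1) ρ :=
      (ContinuousLinearMap.fst ℝ ℝ ℝ).hasFDerivAt.comp_hasDerivAt ρ hd
    have hd2 : HasDerivAt (fun ρ => (α (σ ρ)).2)
        ((ρ⁻¹ / 4) * (planarField k (α (σ ρ))).2) ρ :=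
      (ContinuousLinearMap.snd ℝ ℝ ℝ).hasFDerivAt.comp_hasDerivAt ρ hd
    refine ⟨t1, t2, t3, t4, ?_, ?_⟩
    · rw [hd1.deriv]
      have : 4 * ρ * (ρ⁻¹ / 4 * (planarField k (α (σ ρ))).1) = (planarField k (α (σ ρ))).1 := by
        field_simp
      rw [this]; rfl
    · rw [hd2.deriv]
      have : 4 * ρ * (ρ⁻¹ / 4 * (planarField k (α (σ ρ))).2) = (planarField k (α (σ ρ))).2 := by
        field_simp
      rw [this]; rfl

end Vale.Agent.P252
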