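import Mathlib

open Set Filter Topology
open scoped ContDiff

namespace Vale.Agent.P252

/-- the polynomial part of the planar vector field -/
def planarP (k : ℝ) (p : ℝ × ℝ) : ℝ × ℝ :=
  (p.1 * (3 - p.1 + (k + p.1) * p.2), 1 - k ^ 2 * p.2 ^ 2 + 2 * p.1 * p.2 * (1 + p.2))

/-- the planar vector field -/
noncomputable def planarV (k : ℝ) (t : ℝ) (p : ℝ × ℝ) : ℝ × ℝ := (1 / (4 * t)) • planarP k p

lemma planarP_lip (k : ℝ) : ∃ K, LipschitzOnWith K (planarP k) (Icc (0 : ℝ × ℝ) (9, 1)) := by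
  have h : ContDiff ℝ 1 (planarP k) := by unfold planarP; fun_prop
  exact h.contDiffOn.exists_lipschitzOnWith one_ne_zero (convex_Icc _ _) isCompact_Icc

lemma planarV_lip (k : ℝ) {a : ℝ} (ha : 0 < a) :
    ∃ K, ∀ t, a ≤ t → LipschitzOnWith K (planarV k t) (Icc (0 : ℝ × ℝ) (9, 1)) := by
  obtain ⟨K, hK⟩ := planarP_lip k
  refine ⟨K * (Real.toNNReal (1 / (4 * a))), fun t ht => LipschitzOnWith.of_dist_le_mul ?_⟩
  intro x hx y hy
  have h1 := hK.dist_le_mul x hx y hy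
  have ht0 : 0 < t := ha.trans_le ht
  unfold planarV
  rw [dist_smul₀, Real.norm_of_nonneg (by positivity)]
  have h2 : 1 / (4 * t) ≤ 1 / (4 * a) := by gcongr
  push_cast
  rw [Real.coe_toNNReal _ (by positivity)]
  calc 1 / (4 * t) * dist (planarP k x) (planarP k y)
      ≤ 1 / (4 * a) * (K * dist x y) := by
        apply mul_le_mul h2 h1 dist_nonneg (by positivity)
    _ = K * (1 / (4 * a)) * dist x y := by ring

/-- Uniqueness for the planar system in the rectangle `[0,9] × [0,1]`. -/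
lemma planar_unique (k : ℝ) {a b : ℝ} (ha : 0 < a) (g₁ z₁ g₂ z₂ : ℝ → ℝ)
    (hg₁c : ContinuousOn g₁ (Ico a b)) (hz₁c : ContinuousOn z₁ (Ico a b))
    (hg₂c : ContinuousOn g₂ (Ico a b)) (hz₂c : ContinuousOn z₂ (Ico a b))
    (hg₁d : ∀ t ∈ Ioo a b, DifferentiableAt ℝ g₁ t) (hz₁d : ∀ t ∈ Ioo a b, DifferentiableAt ℝ z₁ t)
    (hg₂d : ∀ t ∈ Ioo a b, DifferentiableAt ℝ g₂ t) (hz₂d : ∀ t ∈ Ioo a b, DifferentiableAt ℝ z₂ t)
    (he₁ : ∀ t ∈ Ioo a b, 4 * t * deriv g₁ t = g₁ t * (3 - g₁ t + (k + g₁ t) * z₁ t) ∧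
      4 * t * deriv z₁ t = 1 - k ^ 2 * z₁ t ^ 2 + 2 * g₁ t * z₁ t * (1 + z₁ t))
    (he₂ : ∀ t ∈ Ioo a b, 4 * t * deriv g₂ t = g₂ t * (3 - g₂ t + (k + g₂ t) * z₂ t) ∧
      4 * t * deriv z₂ t = 1 - k ^ 2 * z₂ t ^ 2 + 2 * g₂ t * z₂ t * (1 + z₂ t))
    (hS₁ : ∀ t ∈ Ico a b, (g₁ t, z₁ t) ∈ Icc (0 : ℝ × ℝ) (9, 1))
    (hS₂ : ∀ t ∈ Ico a b, (g₂ t, z₂ t) ∈ Icc (0 : ℝ × ℝ) (9, 1))
    (hg : g₁ a = g₂ a) (hz : z₁ a = z₂ a) :
    ∀ t ∈ Ico a b, g₁ t = g₂ t ∧ z₁ t = z₂ t := by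
  obtain ⟨K, hK⟩ := planarV_lip k ha
  -- general fact: each solution satisfies the right derivative condition on `Ico a c`
  have key : ∀ g z : ℝ → ℝ, ContinuousOn g (Ico a b) → ContinuousOn z (Ico a b) →
      (∀ t ∈ Ioo a b, DifferentiableAt ℝ g t) → (∀ t ∈ Ioo a b, DifferentiableAt ℝ z t) →
      (∀ t ∈ Ioo a b, 4 * t * deriv g t = g t * (3 - g t + (k + g t) * z t) ∧
        4 * t * deriv z t = 1 - k ^ 2 * z t ^ 2 + 2 * g t * z t * (1 + z t)) →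
      ∀ t ∈ Ico a b, HasDerivWithinAt (fun s => (g s, z s)) (planarV k t (g t, z t)) (Ici t) t := by
    intro g z hgc hzc hgd hzd he t ht
    have hfc : ContinuousOn (fun s => (g s, z s)) (Ico a b) := hgc.prodMk hzc
    have hfd : ∀ s ∈ Ioo a b, HasDerivAt (fun s => (g s, z s)) (planarV k s (g s, z s)) s := by
      intro s hs
      have hs0 : 0 < s := ha.trans hs.1
      have h1 := (hgd s hs).hasDerivAt.prodMk (hzd s hs).hasDerivAt
      convert h1 using 1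
      obtain ⟨e1, e2⟩ := he s hs
      unfold planarV planarP
      rw [Prod.smul_mk, smul_eq_mul, smul_eq_mul, ← e1, ← e2]
      field_simp
    rcases eq_or_lt_of_le ht.1 with h | h
    · subst h
      have hs : Ioo a b ∈ 𝓝[>] a := Ioo_mem_nhdsGT ht.2
      apply hasDerivWithinAt_Ici_of_tendsto_deriv (s := Ioo a b)
      · intro s hs
        exact (hfd s hs).differentiableAt.differentiableWithinAt
      · exact (hfc a ⟨le_rfl, ht.2⟩).mono Ioo_subset_Ico_self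
      · exact hs
      · have hcont : ContinuousWithinAt (fun s => planarV k s (g s, z s)) (Ico a b) a := by
          have h12 : ContinuousWithinAt (fun s => (g s, z s)) (Ico a b) a := hfc a ⟨le_rfl, ht.2⟩
          have hP : Continuous (planarP k) := by unfold planarP; fun_prop
          unfold planarV
          have h3 : ContinuousWithinAt (fun s : ℝ => 1 / (4 * s)) (Ico a b) a := by
            apply ContinuousAt.continuousWithinAt
            have : (4 * a) ≠ 0 := by positivity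
            fun_prop (disch := assumption)
          exact h3.smul (hP.continuousAt.comp_continuousWithinAt h12)
        have hcont' : Tendsto (fun s => planarV k s (g s, z s)) (𝓝[>] a)
            (𝓝 (planarV k a (g a, z a))) := by
          have h1 : 𝓝[>] a ≤ 𝓝[Ico a b] a := by
            rw [← nhdsWithin_Ioo_eq_nhdsGT ht.2]
            exact nhdsWithin_mono _ Ioo_subset_Ico_self
          exact hcont.mono_left h1
        refine hcont'.congr' ?_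
        filter_upwards [hs] with s hs
        exact (hfd s hs).deriv.symm
    · exact (hfd t ⟨h, ht.2⟩).hasDerivWithinAt
  intro t ht
  have hEq : EqOn (fun s => (g₁ s, z₁ s)) (fun s => (g₂ s, z₂ s)) (Icc a t) := by
    have hsub : Icc a t ⊆ Ico a b := fun s hs => ⟨hs.1, hs.2.trans_lt ht.2⟩
    have hsub' : Ico a t ⊆ Ico a b := Ico_subset_Icc_self.trans hsub
    apply ODE_solution_unique_of_mem_Icc_right (v := planarV k) (K := K)
      (s := fun _ => Icc (0 : ℝ × ℝ) (9, 1))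
    · intro s hs; exact hK s hs.1
    · exact (hg₁c.prodMk hz₁c).mono hsub
    · intro s hs; exact key g₁ z₁ hg₁c hz₁c hg₁d hz₁d he₁ s (hsub' hs)
    · intro s hs; exact hS₁ s (hsub' hs)
    · exact (hg₂c.prodMk hz₂c).mono hsub
    · intro s hs; exact key g₂ z₂ hg₂c hz₂c hg₂d hz₂d he₂ s (hsub' hs)
    · intro s hs; exact hS₂ s (hsub' hs)
    · simp [hg, hz]
  have := hEq ⟨ht.1, le_rfl⟩
  simpa [Prod.ext_iff] using this

/-- TASK B2, with the local and global existence statements as hypotheses. -/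
theorem profile_of (k : ℝ) (hk : 9 ≤ k)
    (hA : ∃ R > 0, ∃ G z : ℝ → ℝ, ContDiffOn ℝ ∞ G (Ioo (-R) R) ∧ ContDiffOn ℝ ∞ z (Ioo (-R) R) ∧
      G 0 = 1 ∧ z 0 = 1 / k ∧
      ∀ ρ ∈ Ioo (-R) R,
        4 * ρ * deriv G ρ = G ρ * (-1 - ρ * G ρ + (k + ρ * G ρ) * z ρ) ∧
        4 * ρ * deriv z ρ = 1 - k ^ 2 * z ρ ^ 2 + 2 * (ρ * G ρ) * z ρ * (1 + z ρ))
    (hB : ∀ (ρ₀ g₀ z₀ : ℝ) (_ : 0 < ρ₀) (_ : 0 < g₀) (_ : g₀ ≤ 9)
      (_ : 0 < z₀) (_ : z₀ ≤ 6 / (k + 9)),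
      ∃ g z : ℝ → ℝ, g ρ₀ = g₀ ∧ z ρ₀ = z₀ ∧
      ContinuousOn g (Ici ρ₀) ∧ ContinuousOn z (Ici ρ₀) ∧
      ContDiffOn ℝ ∞ g (Ioi ρ₀) ∧ ContDiffOn ℝ ∞ z (Ioi ρ₀) ∧
      ∀ ρ ∈ Ioi ρ₀, 0 < g ρ ∧ g ρ ≤ 9 ∧ 0 < z ρ ∧ z ρ ≤ 6 / (k + 9) ∧
        4 * ρ * deriv g ρ = g ρ * (3 - g ρ + (k + g ρ) * z ρ) ∧
        4 * ρ * deriv z ρ = 1 - k ^ 2 * z ρ ^ 2 + 2 * g ρ * z ρ * (1 + z ρ)) :
    ∃ ε > 0, ∃ G z : ℝ → ℝ, ContDiffOn ℝ ∞ G (Ioi (-ε)) ∧ ContDiffOn ℝ ∞ z (Ioi (-ε)) ∧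
      G 0 = 1 ∧
      ∀ ρ ∈ Ioi (-ε), 0 < G ρ ∧ 0 < 1 + (k + ρ * G ρ) * z ρ ∧
        4 * ρ * deriv G ρ = G ρ * (-1 - ρ * G ρ + (k + ρ * G ρ) * z ρ) ∧
        4 * ρ * deriv z ρ = 1 - k ^ 2 * z ρ ^ 2 + 2 * (ρ * G ρ) * z ρ * (1 + z ρ) := by
  obtain ⟨R, hR, G₁, z₁, hG₁, hz₁, hG0, hz0, hode₁⟩ := hA
  have hk0 : 0 < k := by linarith
  have hmem : Ioo (-R) R ∈ 𝓝 (0:ℝ) := Ioo_mem_nhds (by linarith) hR
  have hGc : ContinuousAt G₁ 0 := hG₁.continuousOn.continuousAt hmem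
  have hzc : ContinuousAt z₁ 0 := hz₁.continuousOn.continuousAt hmem
  have hbd : 1 / k < 6 / (k + 9) := by
    rw [div_lt_div_iff₀ hk0 (by linarith)]; linarith
  have hbd1 : 6 / (k + 9) ≤ 1 := by
    rw [div_le_one (by linarith)]; linarith
  -- eventual properties near 0
  have e1 : ∀ᶠ ρ in 𝓝 (0:ℝ), 0 < G₁ ρ := hGc.eventually (lt_mem_nhds (by rw [hG0]; norm_num))
  have e2 : ∀ᶠ ρ in 𝓝 (0:ℝ), 0 < z₁ ρ := hzc.eventually (lt_mem_nhds (by rw [hz0]; positivity))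
  have e3 : ∀ᶠ ρ in 𝓝 (0:ℝ), z₁ ρ < 6 / (k + 9) :=
    hzc.eventually (gt_mem_nhds (by rw [hz0]; exact hbd))
  have e4 : ∀ᶠ ρ in 𝓝 (0:ℝ), ρ * G₁ ρ < 9 := by
    have : ContinuousAt (fun ρ => ρ * G₁ ρ) 0 := continuousAt_id.mul hGc
    exact this.eventually (gt_mem_nhds (by simp))
  have e5 : ∀ᶠ ρ in 𝓝 (0:ℝ), 0 < 1 + (k + ρ * G₁ ρ) * z₁ ρ := by
    have : ContinuousAt (fun ρ => 1 + (k + ρ * G₁ ρ) * z₁ ρ) 0 :=
      continuousAt_const.add ((continuousAt_const.add (continuousAt_id.mul hGc)).mul hzc)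
    refine this.eventually (lt_mem_nhds ?_)
    simp [hz0, hk0.ne']
  obtain ⟨δ, hδ, hball⟩ := Metric.eventually_nhds_iff.1
    (e1.and (e2.and (e3.and (e4.and (e5.and hmem)))))
  replace hball : ∀ ρ, -δ < ρ → ρ < δ → 0 < G₁ ρ ∧ 0 < z₁ ρ ∧ z₁ ρ < 6 / (k + 9) ∧
      ρ * G₁ ρ < 9 ∧ 0 < 1 + (k + ρ * G₁ ρ) * z₁ ρ ∧ ρ ∈ Ioo (-R) R := by
    intro ρ h1 h2
    exact hball (by rw [Real.dist_eq, sub_zero, abs_lt]; exact ⟨h1, h2⟩)
  -- the starting point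
  set ρ₀ := δ / 2 with hρ₀
  have hρ₀pos : 0 < ρ₀ := by positivity
  have hρ₀δ : ρ₀ < δ := by rw [hρ₀]; linarith
  obtain ⟨b1, b2, b3, b4, b5, b6⟩ := hball ρ₀ (by linarith) hρ₀δ
  obtain ⟨g₂, z₂, hg₂0, hz₂0, hg₂c, hz₂c, hg₂s, hz₂s, hode₂⟩ := hB ρ₀ (ρ₀ * G₁ ρ₀) (z₁ ρ₀) hρ₀pos
    (by positivity) b4.le b2 b3.le
  -- the local solution is differentiable in `(-δ, δ)`
  have hG₁at : ∀ t, -δ < t → t < δ → ContDiffAt ℝ ∞ G₁ t := fun t h1 h2 =>
    hG₁.contDiffAt (isOpen_Ioo.mem_nhds (hball t h1 h2).2.2.2.2.2)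
  have hz₁at : ∀ t, -δ < t → t < δ → ContDiffAt ℝ ∞ z₁ t := fun t h1 h2 =>
    hz₁.contDiffAt (isOpen_Ioo.mem_nhds (hball t h1 h2).2.2.2.2.2)
  have hg₂at : ∀ t, ρ₀ < t → ContDiffAt ℝ ∞ g₂ t := fun t h1 =>
    hg₂s.contDiffAt (isOpen_Ioi.mem_nhds h1)
  have hz₂at : ∀ t, ρ₀ < t → ContDiffAt ℝ ∞ z₂ t := fun t h1 =>
    hz₂s.contDiffAt (isOpen_Ioi.mem_nhds h1)
  -- uniqueness on `[ρ₀, δ)`
  have huniq : ∀ t ∈ Ico ρ₀ δ, t * G₁ t = g₂ t ∧ z₁ t = z₂ t := by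
    apply planar_unique k hρ₀pos (fun t => t * G₁ t) z₁ g₂ z₂
    · intro t ht
      exact (continuousAt_id.mul
        (hG₁at t (by linarith [ht.1]) ht.2).continuousAt).continuousWithinAt
    · intro t ht
      exact (hz₁at t (by linarith [ht.1]) ht.2).continuousAt.continuousWithinAt
    · exact hg₂c.mono fun t ht => ht.1
    · exact hz₂c.mono fun t ht => ht.1
    · intro t ht
      exact differentiableAt_id.mul
        ((hG₁at t (by linarith [ht.1]) ht.2).differentiableAt (by simp))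
    · intro t ht
      exact (hz₁at t (by linarith [ht.1]) ht.2).differentiableAt (by simp)
    · intro t ht
      exact (hg₂at t ht.1).differentiableAt (by simp)
    · intro t ht
      exact (hz₂at t ht.1).differentiableAt (by simp)
    · intro t ht
      obtain ⟨o1, o2⟩ := hode₁ t (hball t (by linarith [ht.1]) ht.2).2.2.2.2.2
      have hd : deriv (fun t => t * G₁ t) t = G₁ t + t * deriv G₁ t := by
        have := (hasDerivAt_id' t).fun_mul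
          ((hG₁at t (by linarith [ht.1]) ht.2).differentiableAt (by simp)).hasDerivAt
        simpa using this.deriv
      refine ⟨?_, by simpa using o2⟩
      rw [hd]
      linear_combination t * o1
    · intro t ht
      obtain ⟨-, -, -, -, o1, o2⟩ := hode₂ t ht.1
      exact ⟨o1, o2⟩
    · intro t ht
      obtain ⟨c1, c2, c3, c4, c5, c6⟩ := hball t (by linarith [ht.1]) ht.2
      have ht0 : 0 < t := hρ₀pos.trans_le ht.1
      refine ⟨⟨?_, c2.le⟩, ⟨c4.le, (c3.le.trans hbd1)⟩⟩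
      show 0 ≤ t * G₁ t
      positivity
    · intro t ht
      rcases eq_or_lt_of_le ht.1 with h | h
      · rw [← h, hg₂0, hz₂0]
        refine ⟨⟨?_, b2.le⟩, ⟨b4.le, (b3.le.trans hbd1)⟩⟩
        show 0 ≤ ρ₀ * G₁ ρ₀
        positivity
      · obtain ⟨c1, c2, c3, c4, -, -⟩ := hode₂ t h
        exact ⟨⟨c1.le, c3.le⟩, ⟨c2, c4.trans hbd1⟩⟩
    · exact hg₂0.symm
    · exact hz₂0.symm
  -- the glued functions
  set G : ℝ → ℝ := fun ρ => if ρ < δ then G₁ ρ else g₂ ρ / ρ with hGdef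
  set z : ℝ → ℝ := fun ρ => if ρ < δ then z₁ ρ else z₂ ρ with hzdef
  have hGl : ∀ t, t < δ → G =ᶠ[𝓝 t] G₁ := fun t ht => by
    filter_upwards [gt_mem_nhds ht] with s hs
    simp [hGdef, hs]
  have hzl : ∀ t, t < δ → z =ᶠ[𝓝 t] z₁ := fun t ht => by
    filter_upwards [gt_mem_nhds ht] with s hs
    simp [hzdef, hs]
  have hGr : ∀ t, ρ₀ < t → G =ᶠ[𝓝 t] fun s => g₂ s / s := fun t ht => by
    filter_upwards [lt_mem_nhds ht] with s hs
    simp only [hGdef]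
    split_ifs with h
    · rw [← (huniq s ⟨hs.le, h⟩).1]
      have : s ≠ 0 := (hρ₀pos.trans hs).ne'
      field_simp
    · rfl
  have hzr : ∀ t, ρ₀ < t → z =ᶠ[𝓝 t] z₂ := fun t ht => by
    filter_upwards [lt_mem_nhds ht] with s hs
    simp only [hzdef]
    split_ifs with h
    · exact (huniq s ⟨hs.le, h⟩).2
    · rfl
  refine ⟨δ, hδ, G, z, ?_, ?_, ?_, ?_⟩
  · intro t ht
    apply ContDiffAt.contDiffWithinAt
    rcases lt_or_ge t δ with h | h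
    · exact (hG₁at t ht h).congr_of_eventuallyEq (hGl t h)
    · have h' : ρ₀ < t := hρ₀δ.trans_le h
      exact ((hg₂at t h').div contDiffAt_id (hρ₀pos.trans h').ne').congr_of_eventuallyEq (hGr t h')
  · intro t ht
    apply ContDiffAt.contDiffWithinAt
    rcases lt_or_ge t δ with h | h
    · exact (hz₁at t ht h).congr_of_eventuallyEq (hzl t h)
    · have h' : ρ₀ < t := hρ₀δ.trans_le h
      exact (hz₂at t h').congr_of_eventuallyEq (hzr t h')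
  · simp [hGdef, hδ, hG0]
  · intro t ht
    rcases lt_or_ge t δ with h | h
    · rw [(hGl t h).deriv_eq, (hzl t h).deriv_eq, (hGl t h).eq_of_nhds, (hzl t h).eq_of_nhds]
      obtain ⟨c1, c2, c3, c4, c5, c6⟩ := hball t ht h
      obtain ⟨o1, o2⟩ := hode₁ t c6
      exact ⟨c1, c5, o1, o2⟩
    · have h' : ρ₀ < t := hρ₀δ.trans_le h
      have ht0 : 0 < t := hρ₀pos.trans h'
      rw [(hGr t h').deriv_eq, (hzr t h').deriv_eq, (hGr t h').eq_of_nhds,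
        (hzr t h').eq_of_nhds]
      obtain ⟨c1, c2, c3, c4, o1, o2⟩ := hode₂ t h'
      have hd : deriv (fun s => g₂ s / s) t = (deriv g₂ t * t - g₂ t * 1) / t ^ 2 := by
        exact (((hg₂at t h').differentiableAt (by simp)).hasDerivAt.fun_div
          (hasDerivAt_id' t) ht0.ne').deriv
      have hmul : t * (g₂ t / t) = g₂ t := by field_simp
      refine ⟨by positivity, ?_, ?_, ?_⟩
      · rw [hmul]; positivity
      · rw [hmul, hd]
        field_simp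
        linear_combination o1
      · rw [hmul]; exact o2

end Vale.Agent.P252
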