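import Mathlib
import Vale.Agent.P252.Defs

open Set Matrix
open scoped ContDiff

namespace Vale.Agent.P252

/-- the vector `x` with its `l`-th coordinate set to zero, `j`-th component, is differentiable -/
lemma hasFDerivAt_comp0 {n : ℕ} (l j : Fin n) (x : EuclideanSpace ℝ (Fin n)) :
    HasFDerivAt (fun x : EuclideanSpace ℝ (Fin n) => if j = l then (0:ℝ) else x j)
      (if j = l then (0 : EuclideanSpace ℝ (Fin n) →L[ℝ] ℝ)
        else (EuclideanSpace.proj j : EuclideanSpace ℝ (Fin n) →L[ℝ] ℝ)) x := by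
  by_cases h : j = l
  · simp only [h, if_true]
    exact hasFDerivAt_const _ _
  · simp only [h, if_false]
    exact (EuclideanSpace.proj j : EuclideanSpace ℝ (Fin n) →L[ℝ] ℝ).hasFDerivAt

lemma hasFDerivAt_R {n : ℕ} (l : Fin n) (x : EuclideanSpace ℝ (Fin n)) :
    HasFDerivAt (fun x : EuclideanSpace ℝ (Fin n) => ∑ i, (if i = l then (0:ℝ) else x i) ^ 2)
      (∑ i, (2 * (if i = l then (0:ℝ) else x i)) •
        (if i = l then (0 : EuclideanSpace ℝ (Fin n) →L[ℝ] ℝ)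
        else (EuclideanSpace.proj i : EuclideanSpace ℝ (Fin n) →L[ℝ] ℝ))) x := by
  apply HasFDerivAt.fun_sum
  intro i _
  have := (hasFDerivAt_comp0 l i x).pow 2
  simpa using this

/-- chain rule for `x ↦ g (R x) (x l)` -/
lemma hasFDerivAt_radial {n : ℕ} (l : Fin n) (ε : ℝ) (hε : 0 < ε)
    (g gρ gt : ℝ → ℝ → ℝ)
    (h : ∀ ρ t, -ε < ρ → HasFDerivAt (fun p : ℝ × ℝ => g p.1 p.2)
      (gρ ρ t • ContinuousLinearMap.fst ℝ ℝ ℝ + gt ρ t • ContinuousLinearMap.snd ℝ ℝ ℝ) (ρ, t))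
    (x : EuclideanSpace ℝ (Fin n)) :
    HasFDerivAt (fun x : EuclideanSpace ℝ (Fin n) =>
        g (∑ i, (if i = l then (0:ℝ) else x i) ^ 2) (x l))
      (gρ (∑ i, (if i = l then (0:ℝ) else x i) ^ 2) (x l) •
        (∑ i, (2 * (if i = l then (0:ℝ) else x i)) •
        (if i = l then (0 : EuclideanSpace ℝ (Fin n) →L[ℝ] ℝ)
        else (EuclideanSpace.proj i : EuclideanSpace ℝ (Fin n) →L[ℝ] ℝ))) +
       gt (∑ i, (if i = l then (0:ℝ) else x i) ^ 2) (x l) •
        (EuclideanSpace.proj l : EuclideanSpace ℝ (Fin n) →L[ℝ] ℝ)) x := by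
  have hR := hasFDerivAt_R l x
  have hT : HasFDerivAt (fun x : EuclideanSpace ℝ (Fin n) => x l)
      (EuclideanSpace.proj l : EuclideanSpace ℝ (Fin n) →L[ℝ] ℝ) x :=
    (EuclideanSpace.proj l : EuclideanSpace ℝ (Fin n) →L[ℝ] ℝ).hasFDerivAt
  have hnn : 0 ≤ ∑ i, (if i = l then (0:ℝ) else x i) ^ 2 :=
    Finset.sum_nonneg fun i _ => sq_nonneg _
  have hg := h (∑ i, (if i = l then (0:ℝ) else x i) ^ 2) (x l) (by linarith)
  have key := HasFDerivAt.comp x hg (hR.prodMk hT)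
  refine HasFDerivAt.congr_fderiv key ?_
  ext v
  simp

lemma radial_apply {n : ℕ} (l j : Fin n) (x : EuclideanSpace ℝ (Fin n)) :
    (∑ i, (2 * (if i = l then (0:ℝ) else x i)) •
        (if i = l then (0 : EuclideanSpace ℝ (Fin n) →L[ℝ] ℝ)
        else (EuclideanSpace.proj i : EuclideanSpace ℝ (Fin n) →L[ℝ] ℝ)))
        (EuclideanSpace.single j 1) = 2 * (if j = l then (0:ℝ) else x j) := by
  rw [_root_.sum_apply, Finset.sum_eq_single j]
  · by_cases h : j = l <;> simp [h]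
  · intro b _ hb
    by_cases h : b = l
    · simp [h]
    · simp [h, hb]
  · simp

/-- TASK C1: Hessian of `x ↦ f (∑_{i ≠ l} x i ^ 2) (x l)` -/
theorem hessian_radial {n : ℕ} (l : Fin n) (ε : ℝ) (hε : 0 < ε)
    (f fρ ft fρρ fρt ftt : ℝ → ℝ → ℝ)
    (h0 : ∀ ρ t, -ε < ρ → HasFDerivAt (fun p : ℝ × ℝ => f p.1 p.2)
      (fρ ρ t • ContinuousLinearMap.fst ℝ ℝ ℝ + ft ρ t • ContinuousLinearMap.snd ℝ ℝ ℝ) (ρ, t))
    (h1 : ∀ ρ t, -ε < ρ → HasFDerivAt (fun p : ℝ × ℝ => fρ p.1 p.2)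
      (fρρ ρ t • ContinuousLinearMap.fst ℝ ℝ ℝ + fρt ρ t • ContinuousLinearMap.snd ℝ ℝ ℝ) (ρ, t))
    (h2 : ∀ ρ t, -ε < ρ → HasFDerivAt (fun p : ℝ × ℝ => ft p.1 p.2)
      (fρt ρ t • ContinuousLinearMap.fst ℝ ℝ ℝ + ftt ρ t • ContinuousLinearMap.snd ℝ ℝ ℝ) (ρ, t))
    (x : EuclideanSpace ℝ (Fin n)) (y e : Fin n → ℝ) (ρ : ℝ)
    (hy : y = fun i => if i = l then 0 else x i) (he : e = Pi.single l 1)
    (hρ : ρ = ∑ i, y i ^ 2) :
    hessian (fun x => f (∑ i, (if i = l then 0 else x i) ^ 2) (x l)) x =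
      (2 * fρ ρ (x l)) • (1 : Matrix (Fin n) (Fin n) ℝ) + (4 * fρρ ρ (x l)) • vecMulVec y y
      + (2 * fρt ρ (x l)) • (vecMulVec y e + vecMulVec e y)
      + (ftt ρ (x l) - 2 * fρ ρ (x l)) • vecMulVec e e := by
  have hfd : ∀ j : Fin n, (fun x : EuclideanSpace ℝ (Fin n) =>
      fderiv ℝ (fun x : EuclideanSpace ℝ (Fin n) =>
        f (∑ i, (if i = l then (0:ℝ) else x i) ^ 2) (x l)) x (EuclideanSpace.single j 1)) =
      fun x => fρ (∑ i, (if i = l then (0:ℝ) else x i) ^ 2) (x l) *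
          (2 * (if j = l then (0:ℝ) else x j)) +
        ft (∑ i, (if i = l then (0:ℝ) else x i) ^ 2) (x l) * (if l = j then 1 else 0) := by
    intro j
    funext x
    rw [(hasFDerivAt_radial l ε hε f fρ ft h0 x).fderiv]
    rw [_root_.add_apply, _root_.smul_apply,
      _root_.smul_apply, radial_apply]
    simp
  have hρ' : ρ = ∑ i, (if i = l then (0:ℝ) else x i) ^ 2 := by rw [hρ, hy]
  ext i j
  rw [hessian, Matrix.of_apply, hfd j]
  have A := (hasFDerivAt_radial l ε hε fρ fρρ fρt h1 x).fun_mul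
    ((hasFDerivAt_comp0 l j x).const_mul 2)
  have B := (hasFDerivAt_radial l ε hε ft fρt ftt h2 x).mul_const (if l = j then (1:ℝ) else 0)
  rw [(A.fun_add B).fderiv]
  simp only [_root_.add_apply, _root_.smul_apply, radial_apply,
    ← hρ', Matrix.add_apply, Matrix.smul_apply, vecMulVec_apply, Matrix.one_apply, smul_eq_mul,
    hy, he, Pi.single_apply]
  clear A B hfd h0 h1 h2 hρ hρ' hy he
  by_cases hi : i = l
  · by_cases hj : j = l
    · subst hi; subst hj; simp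
    · subst hi
      have hj' : ¬ (i = j) := fun h => hj h.symm
      simp [hj, hj']; ring
  · by_cases hj : j = l
    · subst hj
      have hi' : ¬ (j = i) := fun h => hi h.symm
      simp [hi, hi']; ring
    · have hi' : ¬ (l = i) := fun h => hi h.symm
      have hj' : ¬ (l = j) := fun h => hj h.symm
      by_cases hij : i = j
      · subst hij; simp [hi, hi']; ring
      · have hij' : ¬ (j = i) := fun h => hij h.symm
        simp [hi, hi', hj, hj', hij, hij']; ring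

end Vale.Agent.P252
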