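import Mathlib

open Set Filter Topology
open scoped ContDiff PowerSeries

namespace Vale.Agent.P252

noncomputable section

/-- absolute summability of the coefficients with weight `R ^ n` -/
def Summ (R : ℝ) (f : ℝ⟦X⟧) : Prop := Summable fun n => |PowerSeries.coeff n f| * R ^ n

/-- evaluation of a power series -/
def ev (f : ℝ⟦X⟧) (x : ℝ) : ℝ := ∑' n, PowerSeries.coeff n f * x ^ n

theorem Summ.mono {R r : ℝ} (hr : 0 ≤ r) (h : r ≤ R) {f : ℝ⟦X⟧} (hf : Summ R f) : Summ r f := by
  unfold Summ at *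
  refine hf.of_nonneg_of_le (fun n => by positivity) fun n => ?_
  gcongr

theorem Summ.summable_norm {R x : ℝ} (hx : |x| ≤ R) {f : ℝ⟦X⟧} (hf : Summ R f) :
    Summable fun n => ‖PowerSeries.coeff n f * x ^ n‖ := by
  unfold Summ at *
  refine hf.of_nonneg_of_le (fun n => by positivity) fun n => ?_
  rw [norm_mul, norm_pow, Real.norm_eq_abs, Real.norm_eq_abs]
  gcongr

theorem Summ.summable {R x : ℝ} (hx : |x| ≤ R) {f : ℝ⟦X⟧} (hf : Summ R f) :
    Summable fun n => PowerSeries.coeff n f * x ^ n :=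
  (hf.summable_norm hx).of_norm

theorem Summ.add {R : ℝ} {f g : ℝ⟦X⟧} (hR : 0 ≤ R) (hf : Summ R f) (hg : Summ R g) :
    Summ R (f + g) := by
  unfold Summ at *
  refine (hf.add hg).of_nonneg_of_le (fun n => by positivity) fun n => ?_
  rw [map_add, ← add_mul]
  gcongr
  exact abs_add_le _ _

theorem Summ.mul {R : ℝ} {f g : ℝ⟦X⟧} (hR : 0 ≤ R) (hf : Summ R f) (hg : Summ R g) :
    Summ R (f * g) := by
  unfold Summ at *
  have h := summable_norm_sum_mul_antidiagonal_of_summable_norm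
    (f := fun n => |PowerSeries.coeff n f| * R ^ n) (g := fun n => |PowerSeries.coeff n g| * R ^ n)
    (by simpa using hf.norm) (by simpa using hg.norm)
  refine h.of_nonneg_of_le (fun n => by positivity) fun n => ?_
  rw [PowerSeries.coeff_mul]
  refine le_trans ?_ (le_abs_self _)
  calc |∑ p ∈ Finset.HasAntidiagonal.antidiagonal n,
          PowerSeries.coeff p.1 f * PowerSeries.coeff p.2 g| * R ^ n
      ≤ (∑ p ∈ Finset.HasAntidiagonal.antidiagonal n,
          |PowerSeries.coeff p.1 f * PowerSeries.coeff p.2 g|) * R ^ n := by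
        gcongr
        exact Finset.abs_sum_le_sum_abs _ _
    _ = ∑ p ∈ Finset.HasAntidiagonal.antidiagonal n, |PowerSeries.coeff p.1 f| * R ^ p.1 *
          (|PowerSeries.coeff p.2 g| * R ^ p.2) := by
        rw [Finset.sum_mul]
        refine Finset.sum_congr rfl fun p hp => ?_
        rw [Finset.HasAntidiagonal.mem_antidiagonal] at hp
        rw [abs_mul, ← hp, pow_add]
        ring

theorem Summ.C (R a : ℝ) : Summ R (PowerSeries.C a) := by
  unfold Summ
  refine summable_of_ne_finset_zero (s := {0}) fun n hn => ?_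
  have : n ≠ 0 := by simpa using hn
  simp [PowerSeries.coeff_C, this]

theorem Summ.X (R : ℝ) : Summ R (PowerSeries.X : ℝ⟦X⟧) := by
  unfold Summ
  refine summable_of_ne_finset_zero (s := {1}) fun n hn => ?_
  have : n ≠ 1 := by simpa using hn
  simp [PowerSeries.coeff_X, this]

theorem ev_add {R x : ℝ} (hx : |x| ≤ R) {f g : ℝ⟦X⟧} (hf : Summ R f) (hg : Summ R g) :
    ev (f + g) x = ev f x + ev g x := by
  unfold ev
  rw [← (hf.summable hx).tsum_add (hg.summable hx)]
  simp only [map_add, add_mul]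

theorem ev_mul {R x : ℝ} (hx : |x| ≤ R) {f g : ℝ⟦X⟧} (hf : Summ R f) (hg : Summ R g) :
    ev (f * g) x = ev f x * ev g x := by
  unfold ev
  rw [tsum_mul_tsum_eq_tsum_sum_antidiagonal_of_summable_norm (hf.summable_norm hx)
    (hg.summable_norm hx)]
  refine tsum_congr fun n => ?_
  rw [PowerSeries.coeff_mul, Finset.sum_mul]
  refine Finset.sum_congr rfl fun p hp => ?_
  rw [Finset.HasAntidiagonal.mem_antidiagonal] at hp
  rw [← hp, pow_add]
  ring

theorem ev_C (a x : ℝ) : ev (PowerSeries.C a) x = a := by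
  unfold ev
  rw [tsum_eq_single 0]
  · simp
  · intro n hn
    simp [PowerSeries.coeff_C, hn]

theorem ev_X (x : ℝ) : ev (PowerSeries.X : ℝ⟦X⟧) x = x := by
  unfold ev
  rw [tsum_eq_single 1]
  · simp
  · intro n hn
    simp [PowerSeries.coeff_X, hn]

theorem ev_zero (f : ℝ⟦X⟧) : ev f 0 = PowerSeries.coeff 0 f := by
  unfold ev
  rw [tsum_eq_single 0]
  · simp
  · intro n hn
    simp [hn]

/-- formal derivative -/
def der (f : ℝ⟦X⟧) : ℝ⟦X⟧ := PowerSeries.mk fun n => ((n : ℝ) + 1) * PowerSeries.coeff (n + 1) f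

theorem Summ.der {R : ℝ} {f : ℝ⟦X⟧} (h : ∀ r, 0 < r → r < R → Summ r f) :
    ∀ r, 0 < r → r < R → Summ r (der f) := by
  intro r hr hrR
  obtain ⟨s, hs1, hs2⟩ := exists_between hrR
  have hs : 0 < s := hr.trans hs1
  have hsum := h s hs hs2
  unfold Summ at *
  -- |c_{n+1}| s^{n+1} bounded
  obtain ⟨C, hC⟩ : ∃ C, ∀ n, |PowerSeries.coeff n f| * s ^ n ≤ C := by
    obtain ⟨C, hC⟩ := hsum.tendsto_atTop_zero.bddAbove_range
    exact ⟨C, fun n => hC ⟨n, rfl⟩⟩
  have hq : ‖r / s‖ < 1 := by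
    rw [Real.norm_eq_abs, abs_of_pos (by positivity), div_lt_one hs]; exact hs1
  have hgeo : Summable fun n : ℕ => (n : ℝ) ^ 1 * (r / s) ^ n :=
    summable_pow_mul_geometric_of_norm_lt_one 1 hq
  have hgeo' : Summable fun n : ℕ => (((n + 1 : ℕ) : ℝ)) ^ 1 * (r / s) ^ (n + 1) :=
    (summable_nat_add_iff 1).2 hgeo
  refine (hgeo'.mul_left (C / r)).of_nonneg_of_le (fun n => by positivity) fun n => ?_
  simp only [Vale.Agent.P252.der, PowerSeries.coeff_mk]
  rw [abs_mul, abs_of_pos (by positivity : (0:ℝ) < (n:ℝ) + 1)]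
  have h1 := hC (n + 1)
  have h2 : |PowerSeries.coeff (n + 1) f| ≤ C / s ^ (n + 1) := by
    rw [le_div_iff₀ (by positivity)]; exact h1
  calc ((n:ℝ) + 1) * |PowerSeries.coeff (n + 1) f| * r ^ n
      ≤ ((n:ℝ) + 1) * (C / s ^ (n + 1)) * r ^ n := by gcongr
    _ = C / r * (((n + 1 : ℕ) : ℝ) ^ 1 * (r / s) ^ (n + 1)) := by
        push_cast
        rw [div_pow]
        field_simp
        ring

theorem hasDerivAt_ev {R x : ℝ} {f : ℝ⟦X⟧} (h : ∀ r, 0 < r → r < R → Summ r f) (hx : |x| < R) :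
    HasDerivAt (ev f) (ev (der f) x) x := by
  obtain ⟨r, hr1, hr2⟩ := exists_between hx
  have hr : 0 < r := lt_of_le_of_lt (abs_nonneg x) hr1
  have hd := Summ.der h r hr hr2
  have hf := h r hr hr2
  have hball : x ∈ Metric.ball (0:ℝ) r := by simpa using hr1
  have hu : Summable fun n : ℕ => |(n:ℝ) * PowerSeries.coeff n f| * r ^ (n - 1) := by
    rw [← summable_nat_add_iff 1]
    unfold Summ at hd
    refine hd.congr fun n => ?_
    simp [der]
  have key := hasDerivAt_tsum_of_isPreconnected (𝕜 := ℝ) (F := ℝ)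
    (g := fun n y => PowerSeries.coeff n f * y ^ n)
    (g' := fun n y => PowerSeries.coeff n f * (n * y ^ (n - 1)))
    (u := fun n : ℕ => |(n:ℝ) * PowerSeries.coeff n f| * r ^ (n - 1))
    (t := Metric.ball (0:ℝ) r) (y₀ := 0) (y := x)
    hu Metric.isOpen_ball (convex_ball 0 r).isPreconnected ?_ ?_ (by simpa using hr) ?_ hball
  · have e : ev (der f) x = ∑' n : ℕ, PowerSeries.coeff n f * (n * x ^ (n - 1)) := by
      have hs : Summable fun n : ℕ =>
          PowerSeries.coeff (n + 1) f * (((n + 1 : ℕ) : ℝ) * x ^ (n + 1 - 1)) := by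
        have := hd.summable hr1.le
        refine this.congr fun n => ?_
        simp [der]
        ring
      rw [tsum_eq_zero_add' (f := fun n : ℕ => PowerSeries.coeff n f * ((n : ℝ) * x ^ (n - 1))) hs]
      unfold ev
      simp only [der, PowerSeries.coeff_mk, Nat.cast_zero, zero_mul, mul_zero, zero_add]
      refine tsum_congr fun n => ?_
      rw [Nat.add_sub_cancel]
      push_cast
      ring
    rw [e]
    exact key
  · intro n y _
    simpa using (hasDerivAt_pow n y).const_mul (PowerSeries.coeff n f)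
  · intro n y hy
    have hy' : |y| ≤ r := by
      have : |y| < r := by simpa using hy
      exact this.le
    have e : PowerSeries.coeff n f * (n * y ^ (n - 1)) = ((n:ℝ) * PowerSeries.coeff n f)
        * y ^ (n - 1) := by ring
    rw [e, norm_mul, norm_pow, Real.norm_eq_abs, Real.norm_eq_abs]
    gcongr
  · exact hf.summable (by simpa using hr.le)

theorem contDiffOn_ev_nat {R : ℝ} (m : ℕ) : ∀ f : ℝ⟦X⟧, (∀ r, 0 < r → r < R → Summ r f) →
    ContDiffOn ℝ m (ev f) (Ioo (-R) R) := by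
  induction m with
  | zero =>
    intro f h
    rw [Nat.cast_zero, contDiffOn_zero]
    intro x hx
    exact (hasDerivAt_ev h (abs_lt.2 hx)).continuousAt.continuousWithinAt
  | succ m ih =>
    intro f h
    have : ((m + 1 : ℕ) : WithTop ℕ∞) = (m : WithTop ℕ∞) + 1 := by norm_cast
    rw [this, contDiffOn_succ_iff_deriv_of_isOpen isOpen_Ioo]
    refine ⟨fun x hx => (hasDerivAt_ev h (abs_lt.2 hx)).differentiableAt.differentiableWithinAt,
      by simp, ?_⟩
    exact (ih (der f) (Summ.der h)).congr fun x hx => (hasDerivAt_ev h (abs_lt.2 hx)).deriv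

theorem contDiffOn_ev {R : ℝ} {f : ℝ⟦X⟧} (h : Summ R f) :
    ContDiffOn ℝ ∞ (ev f) (Ioo (-R) R) := by
  rw [contDiffOn_infty]
  intro m
  exact contDiffOn_ev_nat m f fun r hr hrR => h.mono hr.le hrR.le

theorem deriv_ev {R x : ℝ} {f : ℝ⟦X⟧} (h : Summ R f) (hx : |x| < R) :
    deriv (ev f) x = ev (der f) x :=
  (hasDerivAt_ev (fun _ hr hrR => h.mono hr.le hrR.le) hx).deriv

end

end Vale.Agent.P252
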