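import Mathlib
import Vale.Agent.P252.PSeries

open Set Filter Topology
open scoped ContDiff PowerSeries

namespace Vale.Agent.P252

noncomputable section

/-- right-hand side for `A` -/
def FA (k : ℝ) (A W : ℝ⟦X⟧) : ℝ⟦X⟧ :=
  A * (PowerSeries.C k * W - PowerSeries.C (1 - 1 / k) * A + PowerSeries.X * A * W)

/-- lower order part of the right-hand side for `W` -/
def FW (k : ℝ) (A W : ℝ⟦X⟧) : ℝ⟦X⟧ :=
  -(PowerSeries.C (k ^ 2) * W ^ 2) + PowerSeries.C (2 * (1 + 2 / k)) * (A * W)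
    + PowerSeries.C 2 * (PowerSeries.X * A * W ^ 2)

/-- the recursively defined truncations -/
def trn (k : ℝ) : ℕ → ℝ⟦X⟧ × ℝ⟦X⟧
  | 0 => (0, 0)
  | n + 1 =>
    let A := (trn k n).1
    let W := (trn k n).2
    let a : ℝ := if n = 0 then 1 else PowerSeries.coeff (n - 1) (FA k A W) / (4 * n)
    let A' := A + PowerSeries.C a * PowerSeries.X ^ n
    let w : ℝ := PowerSeries.coeff n (PowerSeries.C (2 * ((k + 1) / k ^ 2)) * A'
      + PowerSeries.X * FW k A W) / (4 * n + 4 + 2 * k)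
    (A', W + PowerSeries.C w * PowerSeries.X ^ n)

def serA (k : ℝ) : ℝ⟦X⟧ := PowerSeries.mk fun n => PowerSeries.coeff n (trn k (n + 1)).1
def serW (k : ℝ) : ℝ⟦X⟧ := PowerSeries.mk fun n => PowerSeries.coeff n (trn k (n + 1)).2

theorem trn_coeff_ge (k : ℝ) (n : ℕ) : ∀ m, n ≤ m →
    PowerSeries.coeff m (trn k n).1 = 0 ∧ PowerSeries.coeff m (trn k n).2 = 0 := by
  induction n with
  | zero => intro m _; simp [trn]
  | succ n ih =>
    intro m hm
    have h1 := ih m (by omega)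
    have hne : m ≠ n := by omega
    simp only [trn, map_add, h1.1, h1.2, zero_add, PowerSeries.coeff_C_mul, PowerSeries.coeff_X_pow,
      if_neg hne, mul_zero, and_self]

theorem trn_coeff_succ (k : ℝ) (n m : ℕ) (h : m < n) :
    PowerSeries.coeff m (trn k (n + 1)).1 = PowerSeries.coeff m (trn k n).1 ∧
    PowerSeries.coeff m (trn k (n + 1)).2 = PowerSeries.coeff m (trn k n).2 := by
  have hne : m ≠ n := by omega
  simp only [trn, map_add, PowerSeries.coeff_C_mul, PowerSeries.coeff_X_pow,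
      if_neg hne, mul_zero, add_zero, and_self]

theorem trn_coeff_lt (k : ℝ) (n m : ℕ) (h : m < n) :
    PowerSeries.coeff m (trn k n).1 = PowerSeries.coeff m (serA k) ∧
    PowerSeries.coeff m (trn k n).2 = PowerSeries.coeff m (serW k) := by
  induction n with
  | zero => omega
  | succ n ih =>
    rcases Nat.lt_succ_iff_lt_or_eq.1 h with h1 | h1
    · have h2 := trn_coeff_succ k n m h1
      rw [h2.1, h2.2]
      exact ih h1
    · subst h1
      simp [serA, serW]

/-- congruence modulo `X ^ n` -/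
def Cg (n : ℕ) (f g : ℝ⟦X⟧) : Prop := (PowerSeries.X : ℝ⟦X⟧) ^ n ∣ f - g

theorem Cg.coeff {n : ℕ} {f g : ℝ⟦X⟧} (h : Cg n f g) {m : ℕ} (hm : m < n) :
    PowerSeries.coeff m f = PowerSeries.coeff m g := by
  have := (PowerSeries.X_pow_dvd_iff.1 h) m hm
  rw [map_sub, sub_eq_zero] at this
  exact this

theorem Cg.of_coeff {n : ℕ} {f g : ℝ⟦X⟧}
    (h : ∀ m, m < n → PowerSeries.coeff m f = PowerSeries.coeff m g) : Cg n f g := by
  unfold Cg
  rw [PowerSeries.X_pow_dvd_iff]
  intro m hm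
  rw [map_sub, h m hm, sub_self]

theorem Cg.refl (n : ℕ) (f : ℝ⟦X⟧) : Cg n f f := by unfold Cg; simp

theorem Cg.add {n : ℕ} {f g f' g' : ℝ⟦X⟧} (h : Cg n f g) (h' : Cg n f' g') :
    Cg n (f + f') (g + g') := by
  unfold Cg at *
  have : f + f' - (g + g') = (f - g) + (f' - g') := by ring
  rw [this]
  exact dvd_add h h'

theorem Cg.neg {n : ℕ} {f g : ℝ⟦X⟧} (h : Cg n f g) : Cg n (-f) (-g) := by
  unfold Cg at *
  have : -f - -g = -(f - g) := by ring
  rw [this]
  exact (dvd_neg).2 h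

theorem Cg.mul {n : ℕ} {f g f' g' : ℝ⟦X⟧} (h : Cg n f g) (h' : Cg n f' g') :
    Cg n (f * f') (g * g') := by
  unfold Cg at *
  have : f * f' - g * g' = (f - g) * f' + g * (f' - g') := by ring
  rw [this]
  exact dvd_add (h.mul_right _) (h'.mul_left _)

theorem Cg.pow {n : ℕ} {f g : ℝ⟦X⟧} (h : Cg n f g) (m : ℕ) : Cg n (f ^ m) (g ^ m) := by
  induction m with
  | zero => simpa using Cg.refl n 1
  | succ m ih => rw [pow_succ, pow_succ]; exact ih.mul h

theorem Cg.X_mul {n : ℕ} {f g : ℝ⟦X⟧} (h : Cg n f g) :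
    Cg (n + 1) (PowerSeries.X * f) (PowerSeries.X * g) := by
  unfold Cg at *
  have : PowerSeries.X * f - PowerSeries.X * g = PowerSeries.X * (f - g) := by ring
  rw [this, pow_succ']
  exact mul_dvd_mul_left _ h

theorem Cg.mono {n m : ℕ} (hmn : m ≤ n) {f g : ℝ⟦X⟧} (h : Cg n f g) : Cg m f g :=
  Cg.of_coeff fun i hi => h.coeff (by omega)

theorem cg_FA (k : ℝ) {n : ℕ} {A A' W W' : ℝ⟦X⟧} (hA : Cg n A A') (hW : Cg n W W') :
    Cg n (FA k A W) (FA k A' W') := by
  unfold FA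
  simp only [sub_eq_add_neg]
  exact hA.mul ((((Cg.refl n _).mul hW).add ((Cg.refl n _).mul hA).neg).add
    (((Cg.refl n _).mul hA).mul hW))

theorem cg_FW (k : ℝ) {n : ℕ} {A A' W W' : ℝ⟦X⟧} (hA : Cg n A A') (hW : Cg n W W') :
    Cg n (FW k A W) (FW k A' W') := by
  unfold FW
  exact ((((Cg.refl n _).mul (hW.pow 2)).neg).add ((Cg.refl n _).mul (hA.mul hW))).add
    ((Cg.refl n _).mul (((Cg.refl n _).mul hA).mul (hW.pow 2)))

theorem cg_trn (k : ℝ) (n : ℕ) : Cg n (trn k n).1 (serA k) ∧ Cg n (trn k n).2 (serW k) :=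
  ⟨Cg.of_coeff fun m hm => (trn_coeff_lt k n m hm).1,
   Cg.of_coeff fun m hm => (trn_coeff_lt k n m hm).2⟩

theorem serA_zero (k : ℝ) : PowerSeries.coeff 0 (serA k) = 1 := by
  simp [serA, trn]

theorem serA_succ (k : ℝ) (n : ℕ) :
    4 * ((n : ℝ) + 1) * PowerSeries.coeff (n + 1) (serA k)
      = PowerSeries.coeff n (FA k (serA k) (serW k)) := by
  have h1 : PowerSeries.coeff (n + 1) (serA k)
      = PowerSeries.coeff n (FA k (trn k (n + 1)).1 (trn k (n + 1)).2) / (4 * ((n : ℝ) + 1)) := by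
    have h0 := (trn_coeff_ge k (n + 1) (n + 1) le_rfl).1
    rw [serA, PowerSeries.coeff_mk, trn]
    simp only [map_add, h0, PowerSeries.coeff_C_mul, PowerSeries.coeff_X_pow, if_true, mul_one,
      zero_add, Nat.succ_ne_zero, if_false, Nat.add_sub_cancel]
    push_cast
    rfl
  have h2 := cg_trn k (n + 1)
  rw [h1, (cg_FA k h2.1 h2.2).coeff (Nat.lt_succ_self n)]
  have : ((n : ℝ) + 1) ≠ 0 := by positivity
  field_simp

theorem serW_eq (k : ℝ) (hk : 0 < k) (n : ℕ) :
    (4 * (n : ℝ) + 4 + 2 * k) * PowerSeries.coeff n (serW k)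
      = PowerSeries.coeff n (PowerSeries.C (2 * ((k + 1) / k ^ 2)) * serA k
        + PowerSeries.X * FW k (serA k) (serW k)) := by
  have h1 : PowerSeries.coeff n (serW k)
      = PowerSeries.coeff n (PowerSeries.C (2 * ((k + 1) / k ^ 2)) * (trn k (n + 1)).1
        + PowerSeries.X * FW k (trn k n).1 (trn k n).2) / (4 * n + 4 + 2 * k) := by
    have h0 := (trn_coeff_ge k n n le_rfl).2
    rw [serW, PowerSeries.coeff_mk, trn]
    simp only [map_add, h0, PowerSeries.coeff_C_mul, PowerSeries.coeff_X_pow, if_true, mul_one,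
      zero_add]
  have h2 := cg_trn k n
  have h3 := cg_trn k (n + 1)
  have h4 : Cg (n + 1) (PowerSeries.C (2 * ((k + 1) / k ^ 2)) * (trn k (n + 1)).1
        + PowerSeries.X * FW k (trn k n).1 (trn k n).2)
      (PowerSeries.C (2 * ((k + 1) / k ^ 2)) * serA k
        + PowerSeries.X * FW k (serA k) (serW k)) :=
    ((Cg.refl _ _).mul h3.1).add (cg_FW k h2.1 h2.2).X_mul
  rw [h1, h4.coeff (Nat.lt_succ_self n)]
  have : (4 * (n : ℝ) + 4 + 2 * k) ≠ 0 := by positivity
  field_simp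

/-! ### partial sums -/

def sg (R : ℝ) (N : ℕ) (f : ℝ⟦X⟧) : ℝ := ∑ n ∈ Finset.range N, |PowerSeries.coeff n f| * R ^ n

theorem sg_nonneg {R : ℝ} (hR : 0 ≤ R) (N : ℕ) (f : ℝ⟦X⟧) : 0 ≤ sg R N f :=
  Finset.sum_nonneg fun n _ => by positivity

theorem sg_add {R : ℝ} (hR : 0 ≤ R) (N : ℕ) (f g : ℝ⟦X⟧) :
    sg R N (f + g) ≤ sg R N f + sg R N g := by
  unfold sg
  rw [← Finset.sum_add_distrib]
  refine Finset.sum_le_sum fun n _ => ?_
  rw [map_add, ← add_mul]
  gcongr
  exact abs_add_le _ _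

theorem sg_neg (R : ℝ) (N : ℕ) (f : ℝ⟦X⟧) : sg R N (-f) = sg R N f := by
  unfold sg
  simp

theorem sg_C_mul (R a : ℝ) (N : ℕ) (f : ℝ⟦X⟧) :
    sg R N (PowerSeries.C a * f) = |a| * sg R N f := by
  unfold sg
  rw [Finset.mul_sum]
  refine Finset.sum_congr rfl fun n _ => ?_
  rw [PowerSeries.coeff_C_mul, abs_mul, mul_assoc]

theorem sg_X_mul (R : ℝ) (N : ℕ) (f : ℝ⟦X⟧) :
    sg R (N + 1) (PowerSeries.X * f) = R * sg R N f := by
  unfold sg
  rw [Finset.sum_range_succ', Finset.mul_sum]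
  simp only [PowerSeries.coeff_zero_X_mul, abs_zero, zero_mul, add_zero]
  refine Finset.sum_congr rfl fun n _ => ?_
  rw [PowerSeries.coeff_succ_X_mul, pow_succ]
  ring

theorem sg_mono {R : ℝ} (hR : 0 ≤ R) {N M : ℕ} (h : N ≤ M) (f : ℝ⟦X⟧) : sg R N f ≤ sg R M f :=
  Finset.sum_le_sum_of_subset_of_nonneg (Finset.range_mono h) fun n _ _ => by positivity

theorem sg_X_mul_le {R : ℝ} (hR : 0 ≤ R) (N : ℕ) (f : ℝ⟦X⟧) :
    sg R N (PowerSeries.X * f) ≤ R * sg R N f := by
  rw [← sg_X_mul]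
  exact sg_mono hR (Nat.le_succ N) _

theorem abs_coeff_mul_le {R : ℝ} (hR : 0 ≤ R) (n : ℕ) (f g : ℝ⟦X⟧) :
    |PowerSeries.coeff n (f * g)| * R ^ n ≤ ∑ p ∈ Finset.HasAntidiagonal.antidiagonal n,
      (|PowerSeries.coeff p.1 f| * R ^ p.1 * (|PowerSeries.coeff p.2 g| * R ^ p.2)) := by
  rw [PowerSeries.coeff_mul]
  have h1 : |∑ p ∈ Finset.HasAntidiagonal.antidiagonal n,
      PowerSeries.coeff p.1 f * PowerSeries.coeff p.2 g|
      ≤ ∑ p ∈ Finset.HasAntidiagonal.antidiagonal n,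
        |PowerSeries.coeff p.1 f * PowerSeries.coeff p.2 g| := Finset.abs_sum_le_sum_abs _ _
  refine (mul_le_mul_of_nonneg_right h1 (by positivity)).trans_eq ?_
  rw [Finset.sum_mul]
  refine Finset.sum_congr rfl fun p hp => ?_
  rw [Finset.HasAntidiagonal.mem_antidiagonal] at hp
  rw [abs_mul, ← hp, pow_add]
  ring

theorem sg_mul {R : ℝ} (hR : 0 ≤ R) (N : ℕ) (f g : ℝ⟦X⟧) :
    sg R N (f * g) ≤ sg R N f * sg R N g := by
  unfold sg
  rw [Finset.sum_mul_sum, ← Finset.sum_product']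
  calc ∑ n ∈ Finset.range N, |PowerSeries.coeff n (f * g)| * R ^ n
      ≤ ∑ n ∈ Finset.range N, ∑ p ∈ Finset.HasAntidiagonal.antidiagonal n,
          (|PowerSeries.coeff p.1 f| * R ^ p.1 * (|PowerSeries.coeff p.2 g| * R ^ p.2)) := by
        exact Finset.sum_le_sum fun n _ => abs_coeff_mul_le hR n f g
    _ = ∑ q ∈ (Finset.range N).sigma fun n => Finset.HasAntidiagonal.antidiagonal n,
          (|PowerSeries.coeff q.2.1 f| * R ^ q.2.1 * (|PowerSeries.coeff q.2.2 g| * R ^ q.2.2)) := by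
        rw [Finset.sum_sigma]
    _ = ∑ p ∈ ((Finset.range N).sigma fun n => Finset.HasAntidiagonal.antidiagonal n).image
          (fun q => q.2),
          (|PowerSeries.coeff p.1 f| * R ^ p.1 * (|PowerSeries.coeff p.2 g| * R ^ p.2)) := by
        rw [Finset.sum_image]
        rintro ⟨n, p⟩ hp ⟨m, q⟩ hq h
        simp only [Finset.coe_sigma, Set.mem_sigma_iff, Finset.mem_coe,
          Finset.HasAntidiagonal.mem_antidiagonal] at hp hq
        simp only at h
        subst h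
        have : n = m := by rw [← hp.2, ← hq.2]
        subst this
        rfl
    _ ≤ _ := by
        refine Finset.sum_le_sum_of_subset_of_nonneg ?_ fun p _ _ => by positivity
        intro p hp
        simp only [Finset.mem_image, Finset.mem_sigma, Finset.mem_range,
          Finset.HasAntidiagonal.mem_antidiagonal, Sigma.exists,
          exists_eq_right] at hp
        obtain ⟨n, hn, hpn⟩ := hp
        simp only [Finset.mem_product, Finset.mem_range]
        omega

theorem sg_le_one_sub {R : ℝ} (hR : 0 ≤ R) (N : ℕ) (f g : ℝ⟦X⟧) (a b : ℝ) (_hb : 0 ≤ b)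
    (hf : sg R N f ≤ a) (hg : sg R N g ≤ b) : sg R N (f * g) ≤ a * b :=
  (sg_mul hR N f g).trans (mul_le_mul hf hg (sg_nonneg hR N g)
    ((sg_nonneg hR N f).trans hf))

theorem sg_FA {k R : ℝ} (hk : 2 ≤ k) (hR : 0 ≤ R) (N : ℕ) {A W : ℝ⟦X⟧}
    (hA : sg R N A ≤ 2) (hW : sg R N W ≤ 1) : sg R N (FA k A W) ≤ 2 * (k + 2 + 2 * R) := by
  have hk1 : |1 - 1 / k| ≤ 1 := by
    have h1 : 0 < 1 / k := by positivity
    have h2 : 1 / k ≤ 1 := by rw [div_le_one (by linarith)]; linarith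
    rw [abs_of_nonneg (by linarith)]; linarith
  have hA0 := sg_nonneg hR N A
  have hW0 := sg_nonneg hR N W
  unfold FA
  refine sg_le_one_sub hR N _ _ 2 _ (by positivity) hA ?_
  rw [sub_eq_add_neg]
  refine (sg_add hR N _ _).trans ?_
  have h1 : sg R N (PowerSeries.C k * W + -(PowerSeries.C (1 - 1 / k) * A)) ≤ k + 2 := by
    refine (sg_add hR N _ _).trans ?_
    rw [sg_neg, sg_C_mul, sg_C_mul, abs_of_nonneg (by linarith : (0:ℝ) ≤ k)]
    have e1 : k * sg R N W ≤ k * 1 := by gcongr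
    have e2 : |1 - 1 / k| * sg R N A ≤ 1 * 2 := by gcongr
    linarith
  have h2 : sg R N (PowerSeries.X * A * W) ≤ 2 * R := by
    have e1 : sg R N (PowerSeries.X * A) ≤ R * 2 :=
      (sg_X_mul_le hR N A).trans (by gcongr)
    have := sg_le_one_sub hR N (PowerSeries.X * A) W (R * 2) 1 (by norm_num) e1 hW
    linarith
  linarith

theorem sg_FW {k R : ℝ} (hk : 2 ≤ k) (hR : 0 ≤ R) (N : ℕ) {A W : ℝ⟦X⟧}
    (hA : sg R N A ≤ 2) (hW : sg R N W ≤ 1) : sg R N (FW k A W) ≤ k ^ 2 + 8 + 4 * R := by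
  have hA0 := sg_nonneg hR N A
  have hW0 := sg_nonneg hR N W
  have hc1 : |2 * (1 + 2 / k)| ≤ 4 := by
    have h1 : 0 < 2 / k := by positivity
    have h2 : 2 / k ≤ 1 := by rw [div_le_one (by linarith)]; linarith
    rw [abs_of_nonneg (by positivity)]; linarith
  have hW2 : sg R N (W ^ 2) ≤ 1 := by
    rw [sq]
    have := sg_le_one_sub hR N W W 1 1 (by norm_num) hW hW
    linarith
  have hAW : sg R N (A * W) ≤ 2 := by
    have := sg_le_one_sub hR N A W 2 1 (by norm_num) hA hW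
    linarith
  have hXA : sg R N (PowerSeries.X * A * W ^ 2) ≤ 2 * R := by
    have e1 : sg R N (PowerSeries.X * A) ≤ R * 2 :=
      (sg_X_mul_le hR N A).trans (by gcongr)
    have := sg_le_one_sub hR N (PowerSeries.X * A) (W ^ 2) (R * 2) 1 (by norm_num) e1 hW2
    linarith
  unfold FW
  refine (sg_add hR N _ _).trans ?_
  have h1 : sg R N (-(PowerSeries.C (k ^ 2) * W ^ 2) + PowerSeries.C (2 * (1 + 2 / k)) * (A * W))
      ≤ k ^ 2 + 8 := by
    refine (sg_add hR N _ _).trans ?_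
    rw [sg_neg, sg_C_mul, sg_C_mul, abs_of_nonneg (by positivity : (0:ℝ) ≤ k ^ 2)]
    have e1 : k ^ 2 * sg R N (W ^ 2) ≤ k ^ 2 * 1 := by gcongr
    have e2 : |2 * (1 + 2 / k)| * sg R N (A * W) ≤ 4 * 2 :=
      mul_le_mul hc1 hAW (sg_nonneg hR N _) (by norm_num)
    linarith
  have h2 : sg R N (PowerSeries.C 2 * (PowerSeries.X * A * W ^ 2)) ≤ 4 * R := by
    rw [sg_C_mul, abs_of_pos (by norm_num : (0:ℝ) < 2)]
    linarith
  linarith

theorem sg_bound {k R : ℝ} (hk : 2 ≤ k) (hR : 0 < R) (hR1 : R * (k ^ 2 + 8) ≤ 1) (N : ℕ) :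
    sg R N (serA k) ≤ 2 ∧ sg R N (serW k) ≤ 1 := by
  have hRle : R ≤ 1 / 12 := by
    rw [le_div_iff₀ (by norm_num)]
    nlinarith
  induction N with
  | zero => simp [sg]
  | succ N ih =>
    obtain ⟨hA, hW⟩ := ih
    have hFA := sg_FA hk hR.le N hA hW
    have hFW := sg_FW hk hR.le N hA hW
    have hA' : sg R (N + 1) (serA k) ≤ 2 := by
      have e : sg R (N + 1) (serA k)
          ≤ R * sg R N (FA k (serA k) (serW k)) / 4 + 1 := by
        unfold sg
        rw [Finset.sum_range_succ', serA_zero, Finset.mul_sum, Finset.sum_div]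
        simp only [abs_one, pow_zero, mul_one]
        refine add_le_add_left (Finset.sum_le_sum fun n _ => ?_) 1
        have h1 := serA_succ k n
        have hn : (0:ℝ) < (n:ℝ) + 1 := by positivity
        have h2 : |PowerSeries.coeff (n + 1) (serA k)|
            ≤ |PowerSeries.coeff n (FA k (serA k) (serW k))| / 4 := by
          rw [← h1, abs_mul, abs_of_pos (by positivity : (0:ℝ) < 4 * ((n:ℝ) + 1))]
          rw [le_div_iff₀ (by norm_num)]
          have h3 : (1:ℝ) ≤ (n:ℝ) + 1 := by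
            have : (0:ℝ) ≤ (n:ℝ) := Nat.cast_nonneg n
            linarith
          nlinarith [abs_nonneg (PowerSeries.coeff (n + 1) (serA k))]
        calc |PowerSeries.coeff (n + 1) (serA k)| * R ^ (n + 1)
            ≤ |PowerSeries.coeff n (FA k (serA k) (serW k))| / 4 * R ^ (n + 1) := by gcongr
          _ = _ := by rw [pow_succ]; ring
      have h5 : R * sg R N (FA k (serA k) (serW k)) ≤ R * (2 * (k + 2 + 2 * R)) := by gcongr
      have h6 : R * (2 * (k + 2 + 2 * R)) ≤ 4 := by nlinarith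
      linarith
    refine ⟨hA', ?_⟩
    have e : (4 + 2 * k) * sg R (N + 1) (serW k)
        ≤ sg R (N + 1) (PowerSeries.C (2 * ((k + 1) / k ^ 2)) * serA k
          + PowerSeries.X * FW k (serA k) (serW k)) := by
      unfold sg
      rw [Finset.mul_sum]
      refine Finset.sum_le_sum fun n _ => ?_
      rw [← serW_eq k (by linarith) n, abs_mul, ← mul_assoc]
      have hn : (0:ℝ) ≤ (n:ℝ) := Nat.cast_nonneg n
      rw [abs_of_pos (by positivity : (0:ℝ) < 4 * (n:ℝ) + 4 + 2 * k)]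
      have : (4 + 2 * k) ≤ 4 * (n:ℝ) + 4 + 2 * k := by linarith
      gcongr
    have hc0 : |2 * ((k + 1) / k ^ 2)| ≤ 3 / 2 := by
      rw [abs_of_nonneg (by positivity), ← mul_div_assoc, div_le_div_iff₀ (by positivity)
        (by norm_num)]
      nlinarith
    have h7 : sg R (N + 1) (PowerSeries.C (2 * ((k + 1) / k ^ 2)) * serA k
          + PowerSeries.X * FW k (serA k) (serW k)) ≤ 3 / 2 * 2 + R * (k ^ 2 + 8 + 4 * R) := by
      refine (sg_add hR.le _ _ _).trans ?_
      rw [sg_C_mul, sg_X_mul]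
      have e1 : |2 * ((k + 1) / k ^ 2)| * sg R (N + 1) (serA k) ≤ 3 / 2 * 2 :=
        mul_le_mul hc0 hA' (sg_nonneg hR.le _ _) (by norm_num)
      have e2 : R * sg R N (FW k (serA k) (serW k)) ≤ R * (k ^ 2 + 8 + 4 * R) := by gcongr
      linarith
    have h8 : 3 / 2 * 2 + R * (k ^ 2 + 8 + 4 * R) ≤ 8 := by nlinarith
    have h9 : 8 * sg R (N + 1) (serW k) ≤ (4 + 2 * k) * sg R (N + 1) (serW k) := by
      have := sg_nonneg hR.le (N + 1) (serW k)
      nlinarith
    linarith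

theorem summ_of_sg {R C : ℝ} (hR : 0 ≤ R) {f : ℝ⟦X⟧} (h : ∀ N, sg R N f ≤ C) : Summ R f := by
  unfold Summ
  exact summable_of_sum_range_le (fun n => by positivity) h

theorem ev_neg (f : ℝ⟦X⟧) (x : ℝ) : ev (-f) x = -ev f x := by
  unfold ev
  rw [← tsum_neg]
  refine tsum_congr fun n => ?_
  simp

theorem Summ.neg {R : ℝ} {f : ℝ⟦X⟧} (h : Summ R f) : Summ R (-f) := by
  unfold Summ at *
  simpa using h

/-- formal differential equation for `A` -/
theorem der_serA (k : ℝ) :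
    PowerSeries.C 4 * der (serA k) = FA k (serA k) (serW k) := by
  ext n
  rw [PowerSeries.coeff_C_mul, ← serA_succ, der, PowerSeries.coeff_mk]
  ring

/-- formal differential equation for `W` -/
theorem der_serW (k : ℝ) (hk : 0 < k) :
    PowerSeries.C 4 * (PowerSeries.X * der (serW k)) + PowerSeries.C (4 + 2 * k) * serW k
      = PowerSeries.C (2 * ((k + 1) / k ^ 2)) * serA k
        + PowerSeries.X * FW k (serA k) (serW k) := by
  ext n
  rw [← serW_eq k hk n, map_add, PowerSeries.coeff_C_mul, PowerSeries.coeff_C_mul]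
  rcases n with _ | n
  · simp
  · rw [PowerSeries.coeff_succ_X_mul, der, PowerSeries.coeff_mk]
    push_cast
    ring

theorem local_profile (k : ℝ) (hk : 2 ≤ k) :
    ∃ R > 0, ∃ G z : ℝ → ℝ, ContDiffOn ℝ ∞ G (Ioo (-R) R) ∧ ContDiffOn ℝ ∞ z (Ioo (-R) R) ∧
      G 0 = 1 ∧ z 0 = 1 / k ∧
      ∀ ρ ∈ Ioo (-R) R,
        4 * ρ * deriv G ρ = G ρ * (-1 - ρ * G ρ + (k + ρ * G ρ) * z ρ) ∧
        4 * ρ * deriv z ρ = 1 - k ^ 2 * z ρ ^ 2 + 2 * (ρ * G ρ) * z ρ * (1 + z ρ) := by
  set R : ℝ := 1 / (k ^ 2 + 8) with hRdef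
  have hR : 0 < R := by positivity
  have hR1 : R * (k ^ 2 + 8) ≤ 1 := by
    rw [hRdef]
    field_simp
    exact le_rfl
  have hA : Summ R (serA k) := summ_of_sg hR.le fun N => (sg_bound hk hR hR1 N).1
  have hW : Summ R (serW k) := summ_of_sg hR.le fun N => (sg_bound hk hR hR1 N).2
  have hX : Summ R (PowerSeries.X : ℝ⟦X⟧) := Summ.X R
  set v : ℝ → ℝ := fun ρ => 1 / k + ρ * ev (serW k) ρ with hv
  have hsA := contDiffOn_ev hA
  have hsW := contDiffOn_ev hW
  have hk0 : k ≠ 0 := by positivity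
  refine ⟨R, hR, ev (serA k), v, hsA, ?_, ?_, ?_, ?_⟩
  · exact contDiffOn_const.add (contDiffOn_id.mul hsW)
  · rw [ev_zero, serA_zero]
  · simp [hv]
  · intro ρ hρ
    have hρ' : |ρ| < R := abs_lt.2 hρ
    -- choose an intermediate radius
    obtain ⟨r, hr1, hr2⟩ := exists_between hρ'
    have hr : 0 < r := lt_of_le_of_lt (abs_nonneg ρ) hr1
    have hAr : Summ r (serA k) := hA.mono hr.le hr2.le
    have hWr : Summ r (serW k) := hW.mono hr.le hr2.le
    have hdA : Summ r (der (serA k)) :=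
      Summ.der (fun s hs hsR => hA.mono hs.le hsR.le) r hr hr2
    have hdW : Summ r (der (serW k)) :=
      Summ.der (fun s hs hsR => hW.mono hs.le hsR.le) r hr hr2
    have hXr : Summ r (PowerSeries.X : ℝ⟦X⟧) := Summ.X r
    have hx : |ρ| ≤ r := hr1.le
    have dA : deriv (ev (serA k)) ρ = ev (der (serA k)) ρ := deriv_ev hA hρ'
    have dW : HasDerivAt (ev (serW k)) (ev (der (serW k)) ρ) ρ :=
      hasDerivAt_ev (fun s hs hsR => hW.mono hs.le hsR.le) hρ'
    have dv : deriv v ρ = ev (serW k) ρ + ρ * ev (der (serW k)) ρ := by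
      have := ((hasDerivAt_id ρ).mul dW).const_add (1 / k)
      have h2 := this.deriv
      simp only [id, one_mul] at h2
      exact h2
    have eXA : ev (PowerSeries.X * serA k) ρ = ρ * ev (serA k) ρ := by
      rw [ev_mul hx hXr hAr, ev_X]
    have eFA : ev (FA k (serA k) (serW k)) ρ
        = ev (serA k) ρ * (k * ev (serW k) ρ - (1 - 1 / k) * ev (serA k) ρ
          + ρ * ev (serA k) ρ * ev (serW k) ρ) := by
      unfold FA
      have s1 : Summ r (PowerSeries.C k * serW k) := (Summ.C r k).mul hr.le hWr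
      have s2 : Summ r (PowerSeries.C (1 - 1 / k) * serA k) := (Summ.C r _).mul hr.le hAr
      have s3 : Summ r (PowerSeries.X * serA k * serW k) := (hXr.mul hr.le hAr).mul hr.le hWr
      have s4 : Summ r (PowerSeries.C k * serW k + -(PowerSeries.C (1 - 1 / k) * serA k)) :=
        s1.add hr.le s2.neg
      rw [sub_eq_add_neg, ev_mul hx hAr (s4.add hr.le s3), ev_add hx s4 s3, ev_add hx s1 s2.neg,
        ev_neg, ev_mul hx (Summ.C r k) hWr, ev_mul hx (Summ.C r _) hAr,
        ev_mul hx (hXr.mul hr.le hAr) hWr, eXA, ev_C, ev_C]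
      ring
    have eFW : ev (FW k (serA k) (serW k)) ρ
        = -(k ^ 2 * ev (serW k) ρ ^ 2) + 2 * (1 + 2 / k) * (ev (serA k) ρ * ev (serW k) ρ)
          + 2 * (ρ * ev (serA k) ρ * ev (serW k) ρ ^ 2) := by
      unfold FW
      have sW2 : Summ r (serW k ^ 2) := by rw [sq]; exact hWr.mul hr.le hWr
      have eW2 : ev (serW k ^ 2) ρ = ev (serW k) ρ ^ 2 := by
        rw [sq, ev_mul hx hWr hWr, sq]
      have s1 : Summ r (PowerSeries.C (k ^ 2) * serW k ^ 2) := (Summ.C r _).mul hr.le sW2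
      have sAW : Summ r (serA k * serW k) := hAr.mul hr.le hWr
      have s2 : Summ r (PowerSeries.C (2 * (1 + 2 / k)) * (serA k * serW k)) :=
        (Summ.C r _).mul hr.le sAW
      have s5 : Summ r (PowerSeries.X * serA k * serW k ^ 2) := (hXr.mul hr.le hAr).mul hr.le sW2
      have s3 : Summ r (PowerSeries.C 2 * (PowerSeries.X * serA k * serW k ^ 2)) :=
        (Summ.C r _).mul hr.le s5
      rw [ev_add hx (s1.neg.add hr.le s2) s3, ev_add hx s1.neg s2, ev_neg,
        ev_mul hx (Summ.C r _) sW2, ev_mul hx (Summ.C r _) sAW, ev_mul hx hAr hWr,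
        ev_mul hx (Summ.C r _) s5, ev_mul hx (hXr.mul hr.le hAr) sW2, eXA, eW2, ev_C, ev_C, ev_C]
    have odeA : 4 * ev (der (serA k)) ρ = ev (FA k (serA k) (serW k)) ρ := by
      rw [← der_serA, ev_mul hx (Summ.C r _) hdA, ev_C]
    have odeW : 4 * (ρ * ev (der (serW k)) ρ) + (4 + 2 * k) * ev (serW k) ρ
        = 2 * ((k + 1) / k ^ 2) * ev (serA k) ρ + ρ * ev (FW k (serA k) (serW k)) ρ := by
      have hXd : Summ r (PowerSeries.X * der (serW k)) := hXr.mul hr.le hdW
      have sFW : Summ r (FW k (serA k) (serW k)) := by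
        unfold FW
        have sW2 : Summ r (serW k ^ 2) := by rw [sq]; exact hWr.mul hr.le hWr
        exact ((((Summ.C r _).mul hr.le sW2).neg).add hr.le
          ((Summ.C r _).mul hr.le (hAr.mul hr.le hWr))).add hr.le
          ((Summ.C r _).mul hr.le ((hXr.mul hr.le hAr).mul hr.le sW2))
      have := congrArg (fun f => ev f ρ) (der_serW k (by linarith))
      rw [ev_add hx ((Summ.C r _).mul hr.le hXd) ((Summ.C r _).mul hr.le hWr),
        ev_mul hx (Summ.C r _) hXd, ev_mul hx hXr hdW, ev_mul hx (Summ.C r _) hWr,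
        ev_add hx ((Summ.C r _).mul hr.le hAr) (hXr.mul hr.le sFW),
        ev_mul hx (Summ.C r _) hAr, ev_mul hx hXr sFW, ev_C, ev_C, ev_C, ev_X] at this
      exact this
    rw [eFA] at odeA
    rw [eFW] at odeW
    rw [dA, dv]
    simp only [hv]
    generalize ev (serA k) ρ = a at *
    generalize ev (serW k) ρ = w at *
    generalize ev (der (serA k)) ρ = a' at *
    generalize ev (der (serW k)) ρ = w' at *
    constructor
    · have : 4 * ρ * a' = ρ * (4 * a') := by ring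
      rw [this, odeA]
      field_simp
      ring
    · have : 4 * ρ * (w + ρ * w') = ρ * ((4 * (ρ * w') + (4 + 2 * k) * w) - 2 * k * w) := by ring
      rw [this, odeW]
      field_simp
      ring

end

end Vale.Agent.P252
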