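import Mathlib

open Set Matrix
open scoped ContDiff

namespace Vale.Agent.P252

/-- TASK C3: positive definiteness -/
theorem posDef_radial {n : ℕ} (a b c d ρ : ℝ) (y e : Fin n → ℝ) (ha : 0 < a) (hd : 0 < d)
    (hdet : 0 < (a + b * ρ) * d - c ^ 2 * ρ)
    (hy : y ⬝ᵥ y = ρ) (he : e ⬝ᵥ e = 1) (hye : y ⬝ᵥ e = 0) :
    (a • (1 : Matrix (Fin n) (Fin n) ℝ) + b • vecMulVec y y
      + c • (vecMulVec y e + vecMulVec e y) + (d - a) • vecMulVec e e).PosDef := by
  apply PosDef.of_dotProduct_mulVec_pos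
  · ext i j
    simp only [conjTranspose_apply, Matrix.add_apply, Matrix.smul_apply, vecMulVec_apply,
      Matrix.one_apply, smul_eq_mul, star_trivial, eq_comm (a := i) (b := j)]
    ring
  · intro v hv
    have hvv : 0 < v ⬝ᵥ v := by
      have h := dotProduct_star_self_pos_iff (v := v) |>.2 hv
      simpa using h
    set s := y ⬝ᵥ v with hs
    set τ := e ⬝ᵥ v with hτ
    set m := v ⬝ᵥ v with hm
    have hvy : v ⬝ᵥ y = s := by rw [dotProduct_comm]
    have hve : v ⬝ᵥ e = τ := by rw [dotProduct_comm]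
    have hey : e ⬝ᵥ y = 0 := by rw [dotProduct_comm]; exact hye
    have hQ : star v ⬝ᵥ ((a • (1 : Matrix (Fin n) (Fin n) ℝ) + b • vecMulVec y y
      + c • (vecMulVec y e + vecMulVec e y) + (d - a) • vecMulVec e e) *ᵥ v) =
        a * m + b * s ^ 2 + 2 * c * s * τ + (d - a) * τ ^ 2 := by
      simp only [star_trivial, add_mulVec, smul_mulVec, one_mulVec, vecMulVec_mulVec,
        dotProduct_add, dotProduct_smul, hvy, hve, ← hs, ← hτ, ← hm]
      simp
      ring
    rw [hQ]
    have hρ0 : 0 ≤ ρ := by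
      rw [← hy]; have := dotProduct_star_self_nonneg y; simpa using this
    -- norm of `ρ v - ρ τ e - s y`
    have hN : 0 ≤ ρ ^ 2 * m - ρ ^ 2 * τ ^ 2 - ρ * s ^ 2 := by
      have h := dotProduct_star_self_nonneg (ρ • v - (ρ * τ) • e - s • y)
      simp only [star_trivial, dotProduct_sub, sub_dotProduct, dotProduct_smul, smul_dotProduct,
        hvy, hve, hey, hye, hy, he, ← hs, ← hτ, ← hm, smul_eq_mul] at h
      nlinarith [h]
    have hM : 0 ≤ m - τ ^ 2 := by
      have h := dotProduct_star_self_nonneg (v - τ • e)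
      simp only [star_trivial, dotProduct_sub, sub_dotProduct, dotProduct_smul, smul_dotProduct,
        hvy, hve, hey, hye, hy, he, ← hs, ← hτ, ← hm, smul_eq_mul] at h
      nlinarith [h]
    rcases hρ0.eq_or_lt with h0 | h0
    · have hy0 : y = 0 := by
        have h := dotProduct_star_self_eq_zero (v := y)
        simp only [star_trivial] at h
        exact h.1 (by rw [hy, ← h0])
      have hs0 : s = 0 := by rw [hs, hy0]; simp
      rw [hs0]
      by_cases hτ0 : τ = 0
      · rw [hτ0]; nlinarith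
      · have : 0 < τ ^ 2 := by positivity
        nlinarith
    · -- main case
      have key : d * ρ ^ 2 * (a * m + b * s ^ 2 + 2 * c * s * τ + (d - a) * τ ^ 2) =
          a * d * (ρ ^ 2 * m - ρ ^ 2 * τ ^ 2 - ρ * s ^ 2)
          + ρ * s ^ 2 * ((a + b * ρ) * d - c ^ 2 * ρ) + ρ ^ 2 * (c * s + d * τ) ^ 2 := by ring
      have hpos : 0 < d * ρ ^ 2 := by positivity
      by_contra hcon
      rw [not_lt] at hcon
      have hle : d * ρ ^ 2 * (a * m + b * s ^ 2 + 2 * c * s * τ + (d - a) * τ ^ 2) ≤ 0 :=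
        mul_nonpos_of_nonneg_of_nonpos hpos.le hcon
      rw [key] at hle
      have t1 : 0 ≤ a * d * (ρ ^ 2 * m - ρ ^ 2 * τ ^ 2 - ρ * s ^ 2) := by positivity
      have t2 : 0 ≤ ρ * s ^ 2 * ((a + b * ρ) * d - c ^ 2 * ρ) := by positivity
      have t3 : 0 ≤ ρ ^ 2 * (c * s + d * τ) ^ 2 := by positivity
      have e2 : ρ * s ^ 2 * ((a + b * ρ) * d - c ^ 2 * ρ) = 0 := by linarith
      have e3 : ρ ^ 2 * (c * s + d * τ) ^ 2 = 0 := by linarith
      have e1 : a * d * (ρ ^ 2 * m - ρ ^ 2 * τ ^ 2 - ρ * s ^ 2) = 0 := by linarith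
      have hs0 : s = 0 := by
        have h2 : ρ * ((a + b * ρ) * d - c ^ 2 * ρ) ≠ 0 := by positivity
        have : s ^ 2 * (ρ * ((a + b * ρ) * d - c ^ 2 * ρ)) = 0 := by linarith
        rcases mul_eq_zero.1 this with h | h
        · exact pow_eq_zero_iff (two_ne_zero) |>.1 h
        · exact absurd h h2
      have hτ0 : τ = 0 := by
        rw [hs0] at e3
        have : ρ ^ 2 * d ^ 2 ≠ 0 := by positivity
        have h' : τ ^ 2 * (ρ ^ 2 * d ^ 2) = 0 := by linarith
        rcases mul_eq_zero.1 h' with h | h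
        · exact pow_eq_zero_iff (two_ne_zero) |>.1 h
        · exact absurd h this
      rw [hs0, hτ0] at e1
      have : 0 < a * d * (ρ ^ 2 * m) := by positivity
      nlinarith

end Vale.Agent.P252
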