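import Mathlib
import Vale.Agent.P252.LocalSeries
import Vale.Agent.P252.GlobalPlanar
import Vale.Agent.P252.Glue

open Set
open scoped ContDiff

namespace Vale.Agent.P252

theorem profile (k : ℝ) (hk : 9 ≤ k) :
    ∃ ε > 0, ∃ G z : ℝ → ℝ, ContDiffOn ℝ ∞ G (Ioi (-ε)) ∧ ContDiffOn ℝ ∞ z (Ioi (-ε)) ∧
      G 0 = 1 ∧
      ∀ ρ ∈ Ioi (-ε), 0 < G ρ ∧ 0 < 1 + (k + ρ * G ρ) * z ρ ∧
        4 * ρ * deriv G ρ = G ρ * (-1 - ρ * G ρ + (k + ρ * G ρ) * z ρ) ∧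
        4 * ρ * deriv z ρ = 1 - k ^ 2 * z ρ ^ 2 + 2 * (ρ * G ρ) * z ρ * (1 + z ρ) :=
  profile_of k hk (local_profile k (by linarith)) (global_planar k hk)

end Vale.Agent.P252
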