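import Mathlib

open Set Filter Topology
open scoped ContDiff

namespace Vale.Agent.P252

theorem exists_primitive (ε : ℝ) (hε : 0 < ε) (G : ℝ → ℝ) (hG : ContDiffOn ℝ ∞ G (Ioi (-ε))) :
    ∃ F : ℝ → ℝ, F 0 = 0 ∧ ContDiffOn ℝ ∞ F (Ioi (-ε)) ∧
      ∀ ρ ∈ Ioi (-ε), HasDerivAt F (G ρ) ρ := by
  have hGc : ContinuousOn G (Ioi (-ε)) := hG.continuousOn
  have hd : ∀ ρ ∈ Ioi (-ε), HasDerivAt (fun u => ∫ x in (0:ℝ)..u, G x) (G ρ) ρ := by
    intro ρ hρ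
    have hsub : uIcc 0 ρ ⊆ Ioi (-ε) := by
      intro x hx
      rcases le_total 0 ρ with h | h
      · rw [uIcc_of_le h] at hx
        exact lt_of_lt_of_le (by linarith) hx.1
      · rw [uIcc_of_ge h] at hx
        exact lt_of_lt_of_le hρ hx.1
    apply intervalIntegral.integral_hasDerivAt_right
    · exact (hGc.mono hsub).intervalIntegrable
    · exact hGc.stronglyMeasurableAtFilter isOpen_Ioi ρ hρ
    · exact hGc.continuousAt (isOpen_Ioi.mem_nhds hρ)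
  refine ⟨fun u => ∫ x in (0:ℝ)..u, G x, by simp, ?_, hd⟩
  rw [contDiffOn_infty_iff_deriv_of_isOpen isOpen_Ioi]
  refine ⟨fun ρ hρ => (hd ρ hρ).differentiableAt.differentiableWithinAt, ?_⟩
  exact hG.congr fun ρ hρ => (hd ρ hρ).deriv

/-- `E = 1 + (k + ρ G) z` -/
def Efun (k : ℝ) (G z : ℝ → ℝ) (ρ : ℝ) : ℝ := 1 + (k + ρ * G ρ) * z ρ

/-- logarithmic derivative identity away from `ρ = 0` -/
theorem log_identity (k ρ G z G' z' : ℝ) (hρ : ρ ≠ 0) (hG : 0 < G)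
    (hE : 0 < 1 + (k + ρ * G) * z)
    (h1 : 4 * ρ * G' = G * (-1 - ρ * G + (k + ρ * G) * z))
    (h2 : 4 * ρ * z' = 1 - k ^ 2 * z ^ 2 + 2 * (ρ * G) * z * (1 + z)) :
    k * G' / G + (2 * k + 2) * G / 4 + ((G + ρ * G') * z + (k + ρ * G) * z') /
      (1 + (k + ρ * G) * z) = (k + 3) * (1 + z) * G / 4 := by
  have e1 : G' = G * (-1 - ρ * G + (k + ρ * G) * z) / (4 * ρ) := by
    field_simp; linarith
  have e2 : z' = (1 - k ^ 2 * z ^ 2 + 2 * (ρ * G) * z * (1 + z)) / (4 * ρ) := by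
    field_simp; linarith
  have hE' := hE.ne'
  have hG' := hG.ne'
  have key : k * G' / G * (4 * ρ) + (2 * k + 2) * G / 4 * (4 * ρ)
      + ((G + ρ * G') * z + (k + ρ * G) * z') / (1 + (k + ρ * G) * z) * (4 * ρ)
      = (k + 3) * (1 + z) * G / 4 * (4 * ρ) := by
    have k1 : k * G' / G * (4 * ρ) = k * (-1 - ρ * G + (k + ρ * G) * z) := by
      field_simp; linear_combination k * h1
    have k2 : ((G + ρ * G') * z + (k + ρ * G) * z') / (1 + (k + ρ * G) * z) * (4 * ρ)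
        = (k + ρ * G) + (3 * (ρ * G) - k ^ 2) * z := by
      rw [div_mul_eq_mul_div, div_eq_iff hE']
      linear_combination (ρ * z) * h1 + (k + ρ * G) * h2
    rw [k1, k2]
    ring
  have h4 : (4 * ρ) ≠ 0 := by positivity
  apply mul_right_cancel₀ h4
  rw [add_mul, add_mul]
  exact key

theorem log_identity_all (k ε : ℝ) (G z : ℝ → ℝ)
    (hG : ContDiffOn ℝ ∞ G (Ioi (-ε))) (hz : ContDiffOn ℝ ∞ z (Ioi (-ε)))
    (h : ∀ ρ ∈ Ioi (-ε), 0 < G ρ ∧ 0 < 1 + (k + ρ * G ρ) * z ρ ∧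
        4 * ρ * deriv G ρ = G ρ * (-1 - ρ * G ρ + (k + ρ * G ρ) * z ρ) ∧
        4 * ρ * deriv z ρ = 1 - k ^ 2 * z ρ ^ 2 + 2 * (ρ * G ρ) * z ρ * (1 + z ρ)) :
    ∀ ρ ∈ Ioi (-ε), k * deriv G ρ / G ρ + (2 * k + 2) * G ρ / 4 +
      ((G ρ + ρ * deriv G ρ) * z ρ + (k + ρ * G ρ) * deriv z ρ) /
      (1 + (k + ρ * G ρ) * z ρ) = (k + 3) * (1 + z ρ) * G ρ / 4 := by
  intro ρ hρ
  have hGc : ContinuousOn G (Ioi (-ε)) := hG.continuousOn
  have hzc : ContinuousOn z (Ioi (-ε)) := hz.continuousOn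
  have hG'c : ContinuousOn (deriv G) (Ioi (-ε)) :=
    (((contDiffOn_infty_iff_deriv_of_isOpen isOpen_Ioi).1 hG).2).continuousOn
  have hz'c : ContinuousOn (deriv z) (Ioi (-ε)) :=
    (((contDiffOn_infty_iff_deriv_of_isOpen isOpen_Ioi).1 hz).2).continuousOn
  by_cases h0 : ρ = 0
  · have hmem : Ioi (-ε) ∈ 𝓝 ρ := isOpen_Ioi.mem_nhds hρ
    have c1 : ContinuousAt G ρ := hGc.continuousAt hmem
    have c2 : ContinuousAt z ρ := hzc.continuousAt hmem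
    have c3 : ContinuousAt (deriv G) ρ := hG'c.continuousAt hmem
    have c4 : ContinuousAt (deriv z) ρ := hz'c.continuousAt hmem
    obtain ⟨hGp, hEp, -, -⟩ := h ρ hρ
    have cL : ContinuousAt (fun ρ => k * deriv G ρ / G ρ + (2 * k + 2) * G ρ / 4 +
      ((G ρ + ρ * deriv G ρ) * z ρ + (k + ρ * G ρ) * deriv z ρ) /
      (1 + (k + ρ * G ρ) * z ρ)) ρ := by
      refine ContinuousAt.add (ContinuousAt.add ?_ ?_) ?_
      · exact (continuousAt_const.mul c3).div c1 hGp.ne'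
      · exact (continuousAt_const.mul c1).div_const _
      · refine ContinuousAt.div ?_ ?_ hEp.ne'
        · exact ((c1.add (continuousAt_id.mul c3)).mul c2).add
            ((continuousAt_const.add (continuousAt_id.mul c1)).mul c4)
        · exact continuousAt_const.add ((continuousAt_const.add (continuousAt_id.mul c1)).mul c2)
    have cR : ContinuousAt (fun ρ => (k + 3) * (1 + z ρ) * G ρ / 4) ρ :=
      ((continuousAt_const.mul (continuousAt_const.add c2)).mul c1).div_const _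
    have t1 := cL.tendsto.mono_left (nhdsWithin_le_nhds (s := {ρ}ᶜ))
    have t2 := cR.tendsto.mono_left (nhdsWithin_le_nhds (s := {ρ}ᶜ))
    refine tendsto_nhds_unique (t1.congr' ?_) t2
    have hev : ∀ᶠ x in 𝓝[≠] ρ, x ∈ Ioi (-ε) := nhdsWithin_le_nhds hmem
    filter_upwards [hev, self_mem_nhdsWithin] with x hx hx0
    have hx0' : x ≠ 0 := by rw [h0] at hx0; exact hx0
    obtain ⟨a1, a2, a3, a4⟩ := h x hx
    exact log_identity k x (G x) (z x) _ _ hx0' a1 a2 a3 a4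
  · obtain ⟨a1, a2, a3, a4⟩ := h ρ hρ
    exact log_identity k ρ (G ρ) (z ρ) _ _ h0 a1 a2 a3 a4

/-- The data `P`, `V` entering the counterexample. -/
theorem exists_weight (k : ℕ) (ε : ℝ) (hε : 0 < ε) (G z : ℝ → ℝ)
    (hG : ContDiffOn ℝ ∞ G (Ioi (-ε))) (hz : ContDiffOn ℝ ∞ z (Ioi (-ε)))
    (h : ∀ ρ ∈ Ioi (-ε), 0 < G ρ ∧ 0 < 1 + (k + ρ * G ρ) * z ρ ∧
        4 * ρ * deriv G ρ = G ρ * (-1 - ρ * G ρ + (k + ρ * G ρ) * z ρ) ∧
        4 * ρ * deriv z ρ = 1 - (k : ℝ) ^ 2 * z ρ ^ 2 + 2 * (ρ * G ρ) * z ρ * (1 + z ρ)) :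
    ∃ P V : ℝ → ℝ, P 0 = 1 ∧ ContDiffOn ℝ ∞ P (Ioi (-ε)) ∧
      (∀ ρ, 0 < P ρ) ∧ (∀ ρ ∈ Ioi (-ε), HasDerivAt P (G ρ * P ρ / 4) ρ) ∧
      (∀ ρ ∈ Ioi (-ε), V ρ = (G ρ ^ k * P ρ ^ (2 * k + 2) * (1 + (k + ρ * G ρ) * z ρ)
          / 2 ^ (k + 1)) ^ (-((k : ℝ) + 2) / ((k : ℝ) + 3))) ∧
      (∀ ρ ∈ Ioi (-ε), HasDerivAt V (-((k : ℝ) + 2) * (1 + z ρ) * G ρ * V ρ / 4) ρ) := by
  obtain ⟨F, hF0, hFc, hF⟩ := exists_primitive ε hε G hG
  set P : ℝ → ℝ := fun ρ => Real.exp (F ρ / 4) with hP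
  set Q : ℝ → ℝ := fun ρ => G ρ ^ k * P ρ ^ (2 * k + 2) * (1 + (k + ρ * G ρ) * z ρ)
          / 2 ^ (k + 1) with hQ
  have hPpos : ∀ ρ, 0 < P ρ := fun ρ => Real.exp_pos _
  have hP' : ∀ ρ ∈ Ioi (-ε), HasDerivAt P (G ρ * P ρ / 4) ρ := by
    intro ρ hρ
    have := ((hF ρ hρ).div_const 4).exp
    convert this using 1
    simp only [hP]; ring
  have hQpos : ∀ ρ ∈ Ioi (-ε), 0 < Q ρ := by
    intro ρ hρ
    obtain ⟨a1, a2, -, -⟩ := h ρ hρ
    have := hPpos ρ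
    simp only [hQ]
    positivity
  have hid := log_identity_all k ε G z hG hz h
  have hQ' : ∀ ρ ∈ Ioi (-ε), HasDerivAt Q (Q ρ * (((k : ℝ) + 3) * (1 + z ρ) * G ρ / 4)) ρ := by
    intro ρ hρ
    obtain ⟨a1, a2, -, -⟩ := h ρ hρ
    have hmem : Ioi (-ε) ∈ 𝓝 ρ := isOpen_Ioi.mem_nhds hρ
    have dG : HasDerivAt G (deriv G ρ) ρ :=
      ((hG.differentiableOn (by simp)).differentiableAt hmem).hasDerivAt
    have dz : HasDerivAt z (deriv z ρ) ρ :=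
      ((hz.differentiableOn (by simp)).differentiableAt hmem).hasDerivAt
    have dE : HasDerivAt (fun ρ => 1 + ((k : ℝ) + ρ * G ρ) * z ρ)
        ((G ρ + ρ * deriv G ρ) * z ρ + (k + ρ * G ρ) * deriv z ρ) ρ := by
      exact HasDerivAt.congr_deriv
        (((((hasDerivAt_id ρ).mul dG).const_add (k : ℝ)).mul dz).const_add 1)
        (by simp)
    have dQ := (((dG.pow k).mul ((hP' ρ hρ).pow (2 * k + 2))).mul dE).div_const (2 ^ (k + 1))
    refine HasDerivAt.congr_deriv dQ ?_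
    rw [← hid ρ hρ]
    have hp := (hPpos ρ).ne'
    have hg := a1.ne'
    have hE := a2.ne'
    simp only [hQ]
    have e1 : (k : ℝ) * G ρ ^ (k - 1) * G ρ = k * G ρ ^ k := by
      rcases Nat.eq_zero_or_pos k with h0 | h0
      · simp [h0]
      · rw [mul_assoc, ← pow_succ, Nat.sub_add_cancel h0]
    have e2 : (2 * (k:ℕ) + 2 - 1) = 2 * k + 1 := by omega
    rw [e2]
    push_cast
    have e3 : (k : ℝ) * G ρ ^ (k - 1) = k * G ρ ^ k / G ρ := by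
      rw [eq_div_iff hg]; exact e1
    simp only [Pi.pow_apply, Pi.mul_apply]
    rw [e3]
    generalize hEE : 1 + ((k : ℝ) + ρ * G ρ) * z ρ = E at hE ⊢
    field_simp
    ring
  refine ⟨P, fun ρ => Q ρ ^ (-((k : ℝ) + 2) / ((k : ℝ) + 3)), ?_, ?_, hPpos, hP', ?_, ?_⟩
  · simp [hP, hF0]
  · exact (hFc.div_const 4).exp
  · intro ρ hρ; rfl
  · intro ρ hρ
    have d := (hQ' ρ hρ).rpow_const (p := -((k : ℝ) + 2) / ((k : ℝ) + 3)) (Or.inl (hQpos ρ hρ).ne')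
    convert d using 1
    have hq := hQpos ρ hρ
    rw [Real.rpow_sub_one hq.ne']
    have hk3 : ((k : ℝ) + 3) ≠ 0 := by positivity
    field_simp

end Vale.Agent.P252
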