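import Mathlib
import Vale.Agent.P252.Defs
import Vale.Agent.P252.DetRadial
import Vale.Agent.P252.Weight
import Vale.Agent.P252.Partials
import Vale.Agent.P252.Algebra
import Vale.Agent.P252.HessianRadial
import Vale.Agent.P252.PosDefRadial
import Vale.Agent.P252.Profile

open Set Filter Topology Matrix
open scoped ContDiff

namespace Vale.Agent.P252

noncomputable section

/-- squared norm of the first coordinates -/
def rho {n : ℕ} (l : Fin n) (x : EuclideanSpace ℝ (Fin n)) : ℝ :=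
  ∑ i, (if i = l then 0 else x i) ^ 2

theorem rho_nonneg {n : ℕ} (l : Fin n) (x : EuclideanSpace ℝ (Fin n)) : 0 ≤ rho l x :=
  Finset.sum_nonneg fun _ _ => sq_nonneg _

theorem contDiff_rho {n : ℕ} (l : Fin n) : ContDiff ℝ ∞ (rho l) := by
  unfold rho
  apply ContDiff.sum
  intro i _
  by_cases h : i = l
  · simp only [h, if_true]; exact contDiff_const
  · simp only [h, if_false]
    have : ContDiff ℝ ∞ (fun x : EuclideanSpace ℝ (Fin n) => x i) := by
      fun_prop
    exact this.pow 2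

/-- the vector of first coordinates -/
def yv {n : ℕ} (l : Fin n) (x : EuclideanSpace ℝ (Fin n)) : Fin n → ℝ :=
  fun i => if i = l then 0 else x i

theorem yv_dot {n : ℕ} (l : Fin n) (x : EuclideanSpace ℝ (Fin n)) :
    yv l x ⬝ᵥ yv l x = rho l x := by
  unfold yv rho dotProduct
  exact Finset.sum_congr rfl fun i _ => (sq _).symm

theorem ev_dot {n : ℕ} (l : Fin n) :
    (Pi.single l 1 : Fin n → ℝ) ⬝ᵥ (Pi.single l 1 : Fin n → ℝ) = 1 := by
  simp

theorem yv_ev_dot {n : ℕ} (l : Fin n) (x : EuclideanSpace ℝ (Fin n)) :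
    yv l x ⬝ᵥ (Pi.single l 1 : Fin n → ℝ) = 0 := by
  simp [yv]

theorem weight_rpow (k : ℕ) (Q f : ℝ) (hQ : 0 < Q) (hf : 0 < f) :
    (Q / f ^ (k + 3)) ^ (-(((k + 1 : ℕ) : ℝ) + 1) / (((k + 1 : ℕ) : ℝ) + 2))
      = f ^ (k + 2) * Q ^ (-((k : ℝ) + 2) / ((k : ℝ) + 3)) := by
  have hexp : (-(((k + 1 : ℕ) : ℝ) + 1) / (((k + 1 : ℕ) : ℝ) + 2))
      = -((k : ℝ) + 2) / ((k : ℝ) + 3) := by
    push_cast
    congr 1 <;> ring
  rw [hexp, Real.div_rpow hQ.le (by positivity), div_eq_mul_inv, mul_comm]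
  congr 1
  rw [← Real.rpow_neg (by positivity), ← Real.rpow_natCast f (k + 3), ← Real.rpow_mul hf.le,
    ← Real.rpow_natCast f (k + 2)]
  congr 1
  have : ((k : ℝ) + 3) ≠ 0 := by positivity
  push_cast
  field_simp

theorem main_theorem (n : ℕ) (hn : 10 ≤ n) :
    ∃ u : EuclideanSpace ℝ (Fin n) → ℝ, ContDiff ℝ ∞ u ∧ (∀ x, (hessian u x).PosDef) ∧
      SolvesAffineMaximal u ∧ ¬ IsQuadratic u := by
  obtain ⟨k, rfl⟩ : ∃ k, n = k + 1 := ⟨n - 1, by omega⟩
  have hk : 9 ≤ k := by omega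
  obtain ⟨ε, hε, G, z, hG, hz, hG0, h⟩ := profile (k : ℝ) (by exact_mod_cast hk)
  obtain ⟨P, V, hP0, hPc, hPpos, hP', hV, hV'⟩ := exists_weight k ε hε G z hG hz h
  set l : Fin (k + 1) := Fin.last k with hl
  have hρmem : ∀ x : EuclideanSpace ℝ (Fin (k + 1)), rho l x ∈ Ioi (-ε) := fun x =>
    lt_of_lt_of_le (by linarith : -ε < 0) (rho_nonneg l x)
  have hG' : ∀ ρ ∈ Ioi (-ε), HasDerivAt G (deriv G ρ) ρ := fun ρ hρ =>
    ((hG.differentiableOn (by simp)).differentiableAt (isOpen_Ioi.mem_nhds hρ)).hasDerivAt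
  have hz' : ∀ ρ ∈ Ioi (-ε), HasDerivAt z (deriv z ρ) ρ := fun ρ hρ =>
    ((hz.differentiableOn (by simp)).differentiableAt (isOpen_Ioi.mem_nhds hρ)).hasDerivAt
  -- the function
  set u : EuclideanSpace ℝ (Fin (k + 1)) → ℝ := fun x => fU P (rho l x) (x l) with hu
  have hhess : ∀ x, hessian u x =
      (2 * fUρ P G (rho l x) (x l)) • (1 : Matrix (Fin (k + 1)) (Fin (k + 1)) ℝ)
      + (4 * fUρρ P G (rho l x) (x l)) • vecMulVec (yv l x) (yv l x)
      + (2 * fUρt P G (rho l x) (x l)) • (vecMulVec (yv l x) (Pi.single l 1)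
          + vecMulVec (Pi.single l 1) (yv l x))
      + (fUtt P (rho l x) (x l) - 2 * fUρ P G (rho l x) (x l)) •
          vecMulVec (Pi.single l 1) (Pi.single l 1) := by
    intro x
    exact hessian_radial l ε hε (fU P) (fUρ P G) (fUt P) (fUρρ P G) (fUρt P G) (fUtt P)
      (fun ρ t hρ => hasFDerivAt_fU hPpos (hP' ρ hρ))
      (fun ρ t hρ => hasFDerivAt_fUρ hPpos (hP' ρ hρ) (hG' ρ hρ))
      (fun ρ t hρ => hasFDerivAt_fUt hPpos (hP' ρ hρ))
      x (yv l x) (Pi.single l 1) (rho l x) rfl rfl rfl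
  have hapos : ∀ x, 0 < 2 * fUρ P G (rho l x) (x l) := by
    intro x
    have h1 := (h _ (hρmem x)).1
    have h2 := hPpos (rho l x)
    have h3 := fU_pos hPpos (rho l x) (x l)
    unfold fUρ
    positivity
  have hdpos : ∀ x, 0 < fUtt P (rho l x) (x l) := by
    intro x
    have h2 := hPpos (rho l x)
    have h3 := fU_pos hPpos (rho l x) (x l)
    unfold fUtt
    positivity
  have hΔ : ∀ x, (2 * fUρ P G (rho l x) (x l) + 4 * fUρρ P G (rho l x) (x l) * rho l x)
        * fUtt P (rho l x) (x l) - (2 * fUρt P G (rho l x) (x l)) ^ 2 * rho l x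
      = P (rho l x) ^ 4 * G (rho l x) * (1 + ((k : ℝ) + rho l x * G (rho l x)) * z (rho l x))
        / (4 * fU P (rho l x) (x l) ^ 4) :=
    fun x => aux_det hPpos (h _ (hρmem x)).2.2.1
  have hΔpos : ∀ x, 0 < (2 * fUρ P G (rho l x) (x l) + 4 * fUρρ P G (rho l x) (x l) * rho l x)
        * fUtt P (rho l x) (x l) - (2 * fUρt P G (rho l x) (x l)) ^ 2 * rho l x := by
    intro x
    rw [hΔ x]
    obtain ⟨h1, h4, -, -⟩ := h _ (hρmem x)
    have h2 := hPpos (rho l x)
    have h3 := fU_pos hPpos (rho l x) (x l)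
    positivity
  have hdet : ∀ x, (hessian u x).det = (G (rho l x) ^ k * P (rho l x) ^ (2 * k + 2)
      * (1 + ((k : ℝ) + rho l x * G (rho l x)) * z (rho l x)) / 2 ^ (k + 1))
        / fU P (rho l x) (x l) ^ (k + 3) := by
    intro x
    rw [hhess x, det_radial (by omega) _ _ _ _ (rho l x) _ _ (hapos x).ne' (yv_dot l x)
      (ev_dot l) (yv_ev_dot l x), hΔ x]
    obtain ⟨m, rfl⟩ : ∃ m, k = m + 1 := ⟨k - 1, by omega⟩
    have h3 := (fU_pos hPpos (rho l x) (x l)).ne'
    have e : m + 1 + 1 - 2 = m := by omega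
    have e2 : (2 * fUρ P G (rho l x) (x l)) ^ m
        = G (rho l x) ^ m * P (rho l x) ^ (2 * m) / (2 ^ m * fU P (rho l x) (x l) ^ m) := by
      have e3 : 2 * fUρ P G (rho l x) (x l)
          = G (rho l x) * P (rho l x) ^ 2 / (2 * fU P (rho l x) (x l)) := by
        simp only [fUρ]
        field_simp
        ring
      rw [e3, div_pow, mul_pow, mul_pow, ← pow_mul]
    rw [e, e2]
    field_simp
    ring
  have hW : affineWeight u = fun x => fW k P V (rho l x) (x l) := by
    funext x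
    obtain ⟨h1, h4, -, -⟩ := h _ (hρmem x)
    have h2 := hPpos (rho l x)
    have h3 := fU_pos hPpos (rho l x) (x l)
    rw [affineWeight, hdet x, weight_rpow k _ _ (by positivity) h3, fW, hV _ (hρmem x)]
  have hhessW : ∀ x, hessian (affineWeight u) x =
      (2 * fWρ k P V G z (rho l x) (x l)) • (1 : Matrix (Fin (k + 1)) (Fin (k + 1)) ℝ)
      + (4 * fWρρ k P V G z (rho l x) (x l)) • vecMulVec (yv l x) (yv l x)
      + (2 * fWρt k P V G z (rho l x) (x l)) • (vecMulVec (yv l x) (Pi.single l 1)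
          + vecMulVec (Pi.single l 1) (yv l x))
      + (fWtt k P V (rho l x) (x l) - 2 * fWρ k P V G z (rho l x) (x l)) •
          vecMulVec (Pi.single l 1) (Pi.single l 1) := by
    intro x
    rw [hW]
    exact hessian_radial l ε hε (fW k P V) (fWρ k P V G z) (fWt k P V) (fWρρ k P V G z)
      (fWρt k P V G z) (fWtt k P V)
      (fun ρ t hρ => hasFDerivAt_fW hPpos (hP' ρ hρ) (hV' ρ hρ))
      (fun ρ t hρ => hasFDerivAt_fWρ hPpos (hP' ρ hρ) (hG' ρ hρ) (hz' ρ hρ) (hV' ρ hρ))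
      (fun ρ t hρ => hasFDerivAt_fWt hPpos (hP' ρ hρ) (hV' ρ hρ))
      x (yv l x) (Pi.single l 1) (rho l x) rfl rfl rfl
  refine ⟨u, ?_, ?_, ?_, ?_⟩
  · -- smoothness
    rw [contDiff_iff_contDiffAt]
    intro x
    have h1 : ContDiffAt ℝ ∞ (fun x => P (rho l x)) x := by
      have hPa : ContDiffAt ℝ ∞ P (rho l x) :=
        hPc.contDiffAt (isOpen_Ioi.mem_nhds (hρmem x))
      exact hPa.comp x (contDiff_rho l).contDiffAt
    have h2 : ContDiffAt ℝ ∞ (fun x : EuclideanSpace ℝ (Fin (k + 1)) => x l) x := by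
      have : ContDiff ℝ ∞ (fun x : EuclideanSpace ℝ (Fin (k + 1)) => x l) := by fun_prop
      exact this.contDiffAt
    have h3 : P (rho l x) ^ 2 + x l ^ 2 ≠ 0 := by
      have := hPpos (rho l x)
      positivity
    exact ((h1.pow 2).add (h2.pow 2)).sqrt h3
  · intro x
    rw [hhess x]
    exact posDef_radial _ _ _ _ (rho l x) _ _ (hapos x) (hdpos x) (hΔpos x) (yv_dot l x)
      (ev_dot l) (yv_ev_dot l x)
  · intro x
    have hsymm : ∀ i j, hessian (affineWeight u) x i j = hessian (affineWeight u) x j i := by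
      intro i j
      rw [hhessW x]
      simp only [Matrix.add_apply, Matrix.smul_apply, vecMulVec_apply, smul_eq_mul,
        Matrix.one_apply]
      by_cases hij : i = j
      · subst hij; ring
      · simp only [hij, Ne.symm hij, if_false]
        ring
    have htr : ∑ i, ∑ j, ((hessian u x).det * (hessian u x)⁻¹ i j) *
        hessian (affineWeight u) x i j
        = (hessian u x).det * ((hessian u x)⁻¹ * hessian (affineWeight u) x).trace := by
      simp only [Matrix.trace, Matrix.diag, Matrix.mul_apply, Finset.mul_sum]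
      refine Finset.sum_congr rfl fun i _ => Finset.sum_congr rfl fun j _ => ?_
      rw [hsymm i j]
      ring
    rw [htr, hhess x, hhessW x, trace_inv_radial _ _ _ _ _ _ _ _ (rho l x) _ _ (hapos x).ne'
      (hΔpos x).ne' (yv_dot l x) (ev_dot l) (yv_ev_dot l x)]
    obtain ⟨h1, h4, h5, h6⟩ := h _ (hρmem x)
    have := aux_pde (V := V) (t := x l) hPpos h1 h4 h5 h6
    have hcast : (((k + 1 : ℕ) : ℝ) - 2) = (k : ℝ) - 1 := by push_cast; ring
    rw [hcast, this, mul_zero]
  · rintro ⟨A, b, c, hA⟩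
    have hval : ∀ t : ℝ, √(1 + t ^ 2) = 1 / 2 * (A l l) * t ^ 2 + b l * t + c := by
      intro t
      have := hA (EuclideanSpace.single l t)
      have hr : rho l (EuclideanSpace.single l t) = 0 := by
        unfold rho
        apply Finset.sum_eq_zero
        intro i _
        by_cases hi : i = l <;> simp [hi]
      simp only [hu, hr, fU, hP0] at this
      simp at this
      rw [this]
      ring
    have v0 := hval 0
    have v1 := hval 1
    have v2 := hval (-1)
    have v3 := hval 2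
    have v4 := hval (-2)
    norm_num at v0 v1 v2 v3 v4
    have s2 : √2 ^ 2 = (2:ℝ) := Real.sq_sqrt (by norm_num)
    have s5 : √5 ^ 2 = (5:ℝ) := Real.sq_sqrt (by norm_num)
    have hc : c = 1 := by linarith
    have ha : 1 / 2 * A l l = √2 - 1 := by linarith
    have h5 : √5 = 4 * √2 - 3 := by linarith
    have h6 : (4 * √2 - 3) ^ 2 = 5 := by rw [← h5]; exact s5
    have h7 : √2 = 3 / 2 := by nlinarith
    rw [h7] at s2
    norm_num at s2

end

end Vale.Agent.P252
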